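import Mathlib

/-! Leading terms of power series. -/

namespace Vale.Agent.P279

open PowerSeries

variable {R S : Type*} [CommRing R] [CommRing S]

/-- `s = c T^n + higher order terms` (with `c` possibly zero). -/
def HasLead (s : PowerSeries R) (n : ℕ) (c : R) : Prop :=
  (∀ m < n, coeff m s = 0) ∧ coeff n s = c

theorem HasLead.mul {s t : PowerSeries R} {n n' : ℕ} {c c' : R}
    (h : HasLead s n c) (h' : HasLead t n' c') : HasLead (s * t) (n + n') (c * c') := by
  constructor
  · intro m hm
    rw [coeff_mul]
    refine Finset.sum_eq_zero fun p hp => ?_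
    rw [Finset.HasAntidiagonal.mem_antidiagonal] at hp
    by_cases h1 : p.1 < n
    · rw [h.1 _ h1, zero_mul]
    · rw [h'.1 p.2 (by omega), mul_zero]
  · rw [coeff_mul, Finset.sum_eq_single (n, n')]
    · rw [h.2, h'.2]
    · intro p hp hne
      rw [Finset.HasAntidiagonal.mem_antidiagonal] at hp
      by_cases h1 : p.1 < n
      · rw [h.1 _ h1, zero_mul]
      · by_cases h2 : p.2 < n'
        · rw [h'.1 p.2 h2, mul_zero]
        · exfalso
          apply hne
          ext
          · simp only; omega
          · simp only; omega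
    · intro hn
      exact absurd (by simp) hn

theorem hasLead_one : HasLead (1 : PowerSeries R) 0 1 :=
  ⟨fun m hm => absurd hm (Nat.not_lt_zero m), by simp⟩

theorem HasLead.pow {s : PowerSeries R} {n : ℕ} {c : R} (h : HasLead s n c) (k : ℕ) :
    HasLead (s ^ k) (k * n) (c ^ k) := by
  induction k with
  | zero => simpa using hasLead_one
  | succ k ih =>
    have := ih.mul h
    rw [← pow_succ, ← pow_succ] at this
    convert this using 1
    ring

theorem HasLead.of_dvd {s t : PowerSeries R} {n : ℕ} {c : R} (h : HasLead s n c)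
    (hd : (X : PowerSeries R) ^ (n + 1) ∣ t - s) : HasLead t n c := by
  rw [X_pow_dvd_iff] at hd
  constructor
  · intro m hm
    have := hd m (by omega)
    rw [map_sub, h.1 m hm, sub_zero] at this
    exact this
  · have := hd n (by omega)
    rw [map_sub, h.2, sub_eq_zero] at this
    exact this

theorem HasLead.map {s : PowerSeries R} {n : ℕ} {c : R} (h : HasLead s n c) (f : R →+* S) :
    HasLead (PowerSeries.map f s) n (f c) := by
  constructor
  · intro m hm
    rw [coeff_map, h.1 m hm, map_zero]
  · rw [coeff_map, h.2]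

theorem hasLead_X_pow_mul_C (n : ℕ) (c : R) : HasLead ((X : PowerSeries R) ^ n * C c) n c := by
  constructor
  · intro m hm
    rw [coeff_mul_C, coeff_X_pow, if_neg (by omega), zero_mul]
  · rw [coeff_mul_C, coeff_X_pow, if_pos rfl, one_mul]

theorem exists_hasLead {s : PowerSeries R} {n₁ : ℕ} (h : coeff n₁ s ≠ 0) :
    ∃ n c, n ≤ n₁ ∧ c ≠ 0 ∧ HasLead s n c := by
  classical
  have hex : ∃ n, coeff n s ≠ 0 := ⟨n₁, h⟩
  refine ⟨Nat.find hex, coeff (Nat.find hex) s, Nat.find_min' hex h, Nat.find_spec hex, ?_, rfl⟩
  intro m hm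
  have := Nat.find_min hex hm
  simpa using this

end Vale.Agent.P279
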