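import Mathlib
import Vale.Agent.P279.Lead

/-! Theta series of a Tate curve, as power series in `T` over Laurent polynomials in `x`. -/

namespace Vale.Agent.P279

open PowerSeries

abbrev L : Type := LaurentPolynomial ℚ
abbrev O : Type := PowerSeries ℚ
abbrev A0 : Type := PowerSeries L

/-- the coefficient of `T^n x^b`, zero for negative `n` -/
noncomputable def co (s : A0) (n b : ℤ) : ℚ :=
  if 0 ≤ n then (coeff n.toNat s).coeff b else 0

theorem co_nat (s : A0) (n : ℕ) (b : ℤ) : co s n b = (coeff n s).coeff b := by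
  simp [co]

theorem co_neg (s : A0) {n : ℤ} (h : n < 0) (b : ℤ) : co s n b = 0 := by
  simp [co, not_le.mpr h]

theorem co_add (s t : A0) (n b : ℤ) : co (s + t) n b = co s n b + co t n b := by
  unfold co
  split_ifs <;> simp

theorem co_zero (n b : ℤ) : co 0 n b = 0 := by
  unfold co
  split_ifs <;> simp

theorem co_mul (s t : A0) (n b : ℤ) :
    co (s * t) n b = ∑ᶠ p : ℤ × ℤ, co s p.1 p.2 * co t (n - p.1) (b - p.2) := by
  classical
  rcases lt_or_ge n 0 with hn | hn
  · rw [co_neg _ hn]
    symm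
    apply finsum_eq_zero_of_forall_eq_zero
    intro p
    rcases lt_or_ge p.1 0 with h | h
    · rw [co_neg _ h, zero_mul]
    · rw [co_neg t (by omega), mul_zero]
  · obtain ⟨N, rfl⟩ := Int.eq_ofNat_of_zero_le hn
    set B : Finset ℤ := (Finset.range (N + 1)).biUnion fun i => (coeff i s).coeff.support with hB
    set S : Finset (ℤ × ℤ) :=
      ((Finset.range (N + 1)).map ⟨((↑) : ℕ → ℤ), Nat.cast_injective⟩) ×ˢ B with hS
    rw [finsum_eq_sum_of_support_subset (s := S)]
    · rw [co_nat, coeff_mul, Finset.Nat.sum_antidiagonal_eq_sum_range_succ_mk, hS,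
        Finset.sum_product, Finset.sum_map, AddMonoidAlgebra.coeff_sum, Finsupp.finsetSum_apply]
      refine Finset.sum_congr rfl fun i hi => ?_
      rw [AddMonoidAlgebra.coeff_mul_apply_left,
        Finsupp.sum_of_support_subset _ (s := B) _ _ (by simp)]
      · refine Finset.sum_congr rfl fun b1 _ => ?_
        have hi' : i ≤ N := Nat.lt_succ_iff.mp (Finset.mem_range.mp hi)
        simp only [Function.Embedding.coeFn_mk]
        rw [co_nat, show ((N : ℤ) - (i : ℤ)) = ((N - i : ℕ) : ℤ) by omega, co_nat,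
          show -b1 + b = b - b1 by ring]
      · intro b1 hb1
        rw [hB, Finset.mem_biUnion]
        exact ⟨i, hi, hb1⟩
    · intro p hp
      rw [Function.mem_support] at hp
      have h1 : co s p.1 p.2 ≠ 0 := left_ne_zero_of_mul hp
      have h2 : co t (N - p.1) (b - p.2) ≠ 0 := right_ne_zero_of_mul hp
      have h3 : 0 ≤ p.1 := by
        by_contra h
        exact h1 (co_neg _ (not_le.mp h) _)
      have h4 : 0 ≤ (N : ℤ) - p.1 := by
        by_contra h
        exact h2 (co_neg _ (not_le.mp h) _)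
      obtain ⟨i, hi⟩ := Int.eq_ofNat_of_zero_le h3
      have hiN : i ∈ Finset.range (N + 1) := Finset.mem_range.mpr (by omega)
      rw [hi, co_nat] at h1
      rw [Finset.mem_coe, hS, Finset.mem_product]
      refine ⟨Finset.mem_map.mpr ⟨i, hiN, hi.symm⟩, ?_⟩
      rw [hB, Finset.mem_biUnion]
      exact ⟨i, hiN, Finsupp.mem_support_iff.mpr h1⟩

/-- scalars -/
noncomputable def ι0 : O →+* A0 := PowerSeries.map LaurentPolynomial.C

theorem co_ι0_of_ne (c : O) (n : ℤ) {b : ℤ} (hb : b ≠ 0) : co (ι0 c) n b = 0 := by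
  unfold co ι0
  split_ifs
  · rw [coeff_map, LaurentPolynomial.C_apply, if_neg hb]
  · rfl

theorem co_one (n b : ℤ) : co 1 n b = if n = 0 ∧ b = 0 then 1 else 0 := by
  unfold co
  by_cases hn : 0 ≤ n
  · obtain ⟨N, rfl⟩ := Int.eq_ofNat_of_zero_le hn
    rw [if_pos hn, Int.toNat_natCast, coeff_one]
    by_cases h0 : N = 0
    · subst h0
      rw [if_pos rfl, ← LaurentPolynomial.T_zero, LaurentPolynomial.T_apply]
      by_cases hb : b = 0
      · simp [hb]
      · simp [hb, Ne.symm hb]
    · rw [if_neg h0, if_neg (by omega)]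
      simp
  · rw [if_neg hn, if_neg (by omega)]

section QP

variable (a w : ℤ)

/-- the shift of the `T`-exponent at level `k` -/
def sh (k b : ℤ) : ℤ := 6 * a * (a * b - k * w) + 9 * a ^ 2 * k

/-- quasi-periodicity of level `k` -/
def QP (k : ℤ) (s : A0) : Prop := ∀ n b : ℤ, co s (n + sh a w k b) (b + 3 * k) = co s n b

variable {a w}

theorem QP.zero (k : ℤ) : QP a w k 0 := fun n b => by rw [co_zero, co_zero]

theorem QP.add {k : ℤ} {s t : A0} (hs : QP a w k s) (ht : QP a w k t) : QP a w k (s + t) :=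
  fun n b => by rw [co_add, co_add, hs, ht]

theorem QP.sum {ι : Type*} {k : ℤ} (I : Finset ι) (f : ι → A0) (h : ∀ i ∈ I, QP a w k (f i)) :
    QP a w k (∑ i ∈ I, f i) :=
  Finset.sum_induction f (QP a w k) (fun _ _ => QP.add) (QP.zero k) h

theorem QP.scalar (c : O) : QP a w 0 (ι0 c) := by
  intro n b
  by_cases hb : b = 0
  · subst hb
    simp [sh]
  · rw [co_ι0_of_ne c _ hb, co_ι0_of_ne c _ (by simpa using hb)]

theorem QP.one : QP a w 0 1 := by simpa using QP.scalar (a := a) (w := w) 1

theorem QP.mul {k l : ℤ} {s t : A0} (hs : QP a w k s) (ht : QP a w l t) :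
    QP a w (k + l) (s * t) := by
  intro n b
  rw [co_mul, co_mul]
  let e : ℤ × ℤ ≃ ℤ × ℤ :=
    { toFun := fun q => (q.1 + sh a w k q.2, q.2 + 3 * k)
      invFun := fun p => (p.1 - sh a w k (p.2 - 3 * k), p.2 - 3 * k)
      left_inv := fun q => by simp
      right_inv := fun p => by simp }
  rw [← finsum_comp_equiv e]
  refine finsum_congr fun q => ?_
  have h1 : co s (e q).1 (e q).2 = co s q.1 q.2 := hs q.1 q.2
  have h2 : n + sh a w (k + l) b - (e q).1 = (n - q.1) + sh a w l (b - q.2) := by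
    simp only [e, Equiv.coe_fn_mk, sh]; ring
  have h3 : b + 3 * (k + l) - (e q).2 = (b - q.2) + 3 * l := by
    simp only [e, Equiv.coe_fn_mk]; ring
  rw [h1, h2, h3, ht]

theorem QP.pow {k : ℤ} {s : A0} (hs : QP a w k s) (m : ℕ) : QP a w (m * k) (s ^ m) := by
  induction m with
  | zero => simpa using QP.one
  | succ m ih =>
    have := ih.mul hs
    rw [← pow_succ] at this
    convert this using 1
    push_cast
    ring

theorem QP.window (ha : 0 < a) {k : ℤ} {s : A0} (hs : QP a w k s) {n : ℕ} {c : L}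
    (h : HasLead s n c) {b : ℤ} (hb : c.coeff b ≠ 0) :
    -(3 * a * k) ≤ 2 * (a * b - k * w) ∧ 2 * (a * b - k * w) ≤ 3 * a * k := by
  have low : ∀ m b' : ℤ, m < n → co s m b' = 0 := by
    intro m b' hm
    rcases lt_or_ge m 0 with h0 | h0
    · exact co_neg _ h0 _
    · obtain ⟨M, rfl⟩ := Int.eq_ofNat_of_zero_le h0
      rw [co_nat, h.1 M (by omega)]
      simp
  have h0 : co s n b ≠ 0 := by rwa [co_nat, h.2]
  constructor
  · by_contra hc
    apply h0
    rw [← hs n b]
    apply low
    have : sh a w k b = 3 * a * (2 * (a * b - k * w) + 3 * a * k) := by unfold sh; ring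
    rw [this]
    nlinarith
  · by_contra hc
    apply h0
    have := hs (n - sh a w k (b - 3 * k)) (b - 3 * k)
    rw [sub_add_cancel, sub_add_cancel] at this
    rw [this]
    apply low
    have : sh a w k (b - 3 * k) = 3 * a * (2 * (a * b - k * w) - 3 * a * k) := by unfold sh; ring
    rw [this]
    nlinarith

end QP

section LB

/-- lower bound by a supporting line, with the (unique) term on the line -/
def LB (s : A0) (lam y b0 : ℤ) (c0 : ℚ) : Prop :=
  ∀ n b : ℤ, (n - lam * b < y → co s n b = 0) ∧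
    (n - lam * b = y → co s n b = if b = b0 then c0 else 0)

theorem LB.one (lam : ℤ) : LB 1 lam 0 0 1 := by
  intro n b
  rw [co_one]
  constructor
  · intro h
    rw [if_neg]
    rintro ⟨rfl, rfl⟩
    simp at h
  · intro h
    by_cases hb : b = 0
    · subst hb
      rw [if_pos rfl, if_pos ⟨by simpa using h, rfl⟩]
    · rw [if_neg hb, if_neg (fun h => hb h.2)]

theorem LB.mul {s t : A0} {lam y y' b0 b0' : ℤ} {c0 c0' : ℚ} (hs : LB s lam y b0 c0)
    (ht : LB t lam y' b0' c0') : LB (s * t) lam (y + y') (b0 + b0') (c0 * c0') := by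
  intro n b
  rw [co_mul]
  constructor
  · intro h
    apply finsum_eq_zero_of_forall_eq_zero
    intro p
    by_cases h1 : p.1 - lam * p.2 < y
    · rw [(hs _ _).1 h1, zero_mul]
    · rw [(ht _ _).1 (by rw [mul_sub]; omega), mul_zero]
  · intro h
    rw [finsum_eq_single _ ((y + lam * b0, b0) : ℤ × ℤ)]
    · rw [(hs _ _).2 (by simp), if_pos rfl, (ht _ _).2 (by rw [mul_sub]; simp only; omega)]
      by_cases hb : b = b0 + b0'
      · rw [if_pos hb, if_pos (by simp only; omega)]
      · rw [if_neg hb, if_neg (by simp only; omega), mul_zero]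
    · intro p hp
      rcases lt_trichotomy (p.1 - lam * p.2) y with h1 | h1 | h1
      · rw [(hs _ _).1 h1, zero_mul]
      · rw [(hs _ _).2 h1, if_neg, zero_mul]
        intro h2
        apply hp
        ext
        · simp only; rw [← h2]; omega
        · exact h2
      · rw [(ht _ _).1 (by rw [mul_sub]; omega), mul_zero]

theorem LB.pow {s : A0} {lam y b0 : ℤ} {c0 : ℚ} (hs : LB s lam y b0 c0) (m : ℕ) :
    LB (s ^ m) lam (m * y) (m * b0) (c0 ^ m) := by
  induction m with
  | zero => simpa using LB.one lam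
  | succ m ih =>
    have := ih.mul hs
    rw [← pow_succ, ← pow_succ] at this
    convert this using 1 <;> push_cast <;> ring

end LB

section theta

variable (a w : ℤ)

open Classical in
/-- `theta_i = sum over b = i mod 3 of T^((a b - w)^2) x^b` -/
noncomputable def theta (i : Fin 3) : A0 :=
  PowerSeries.mk fun n => ∑ b ∈ (Finset.Icc (-((n : ℤ) + |w|)) ((n : ℤ) + |w|)).filter
    (fun b => (n : ℤ) = (a * b - w) ^ 2 ∧ b % 3 = (i : ℕ)), LaurentPolynomial.T b

variable {a w}

theorem co_theta (ha : 0 < a) (i : Fin 3) (n b : ℤ) :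
    co (theta a w i) n b = if n = (a * b - w) ^ 2 ∧ b % 3 = (i : ℕ) then 1 else 0 := by
  classical
  rcases lt_or_ge n 0 with hn | hn
  · rw [co_neg _ hn, if_neg]
    rintro ⟨h, -⟩
    nlinarith [sq_nonneg (a * b - w)]
  · obtain ⟨N, rfl⟩ := Int.eq_ofNat_of_zero_le hn
    rw [co_nat, theta, coeff_mk, AddMonoidAlgebra.coeff_sum, Finsupp.finsetSum_apply]
    simp only [LaurentPolynomial.T_apply]
    rw [Finset.sum_ite_eq']
    congr 1
    rw [Finset.mem_filter, Finset.mem_Icc, eq_iff_iff]
    constructor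
    · exact fun h => h.2
    · intro h
      refine ⟨?_, h⟩
      have h1 : |a * b - w| ≤ N := by
        rw [h.1, ← sq_abs]
        have := abs_nonneg (a * b - w)
        rcases this.eq_or_lt with h0 | h0
        · rw [← h0]; simp
        · nlinarith
      have h2 : |a * b| ≤ N + |w| := by
        have := abs_add_le (a * b - w) w
        rw [sub_add_cancel] at this
        omega
      have h3 : |b| ≤ |a * b| := by
        rw [abs_mul, abs_of_pos ha]
        nlinarith [abs_nonneg b]
      exact abs_le.mp (h3.trans h2)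

theorem QP_theta (ha : 0 < a) (i : Fin 3) : QP a w 1 (theta a w i) := by
  intro n b
  rw [co_theta ha, co_theta ha]
  have h1 : (a * (b + 3 * 1) - w) ^ 2 = (a * b - w) ^ 2 + sh a w 1 b := by unfold sh; ring
  have h2 : (b + 3 * 1) % 3 = b % 3 := by omega
  rw [h1, h2]
  simp

theorem LB_theta (ha : 0 < a) (β : ℤ) (i : Fin 3) (b0 : ℤ) (c0 : ℚ)
    (h : ∀ b : ℤ, (b = β ∨ b = β + 1) →
      (if b % 3 = (i : ℕ) then (1 : ℚ) else 0) = if b = b0 then c0 else 0)
    (h' : c0 ≠ 0 → b0 = β ∨ b0 = β + 1) :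
    LB (theta a w i) ((a * (β + 1) - w) ^ 2 - (a * β - w) ^ 2)
      ((a * β - w) ^ 2 - ((a * (β + 1) - w) ^ 2 - (a * β - w) ^ 2) * β) b0 c0 := by
  intro n b
  have key : (a * b - w) ^ 2 - ((a * (β + 1) - w) ^ 2 - (a * β - w) ^ 2) * b
      - ((a * β - w) ^ 2 - ((a * (β + 1) - w) ^ 2 - (a * β - w) ^ 2) * β)
      = a ^ 2 * ((b - β) * (b - β - 1)) := by ring
  have hpos : 0 ≤ (b - β) * (b - β - 1) := by
    rcases le_or_gt b β with h | h
    · exact mul_nonneg_of_nonpos_of_nonpos (by omega) (by omega)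
    · exact mul_nonneg (by omega) (by omega)
  have ha2 : 0 < a ^ 2 := by positivity
  rw [co_theta ha]
  constructor
  · intro hlt
    rw [if_neg]
    rintro ⟨h1, -⟩
    rw [h1] at hlt
    nlinarith [mul_nonneg ha2.le hpos]
  · intro heq
    by_cases hb : b = β ∨ b = β + 1
    · rw [← h b hb]
      have : (b - β) * (b - β - 1) = 0 := by
        rcases hb with hb | hb <;> simp [hb]
      rw [this, mul_zero] at key
      have h1 : n = (a * b - w) ^ 2 := by omega
      simp [h1]
    · have hne : (b - β) * (b - β - 1) ≠ 0 := mul_ne_zero (by omega) (by omega)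
      have hp : 0 < a ^ 2 * ((b - β) * (b - β - 1)) := mul_pos ha2 (lt_of_le_of_ne hpos hne.symm)
      rw [if_neg (by rintro ⟨h1, -⟩; rw [h1] at heq; omega)]
      by_cases hc : c0 = 0
      · simp [hc]
      · rw [if_neg]
        rintro rfl
        exact hb (h' hc)

end theta

end Vale.Agent.P279
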