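import Mathlib
import Vale.Agent.P279.Theta

/-! The sheared triangle: a vertical primitive chord touches all three sides. -/

namespace Vale.Agent.P279

open Polynomial

theorem chord {D P : ℚ[X]} (hP : P ≠ 0) (hD : D ∣ P) (h0 : D.coeff 0 ≠ 0) :
    P.natTrailingDegree + D.natDegree ≤ P.natDegree := by
  obtain ⟨Q, rfl⟩ := hD
  have hD0 : D ≠ 0 := left_ne_zero_of_mul hP
  have hQ0 : Q ≠ 0 := right_ne_zero_of_mul hP
  rw [natTrailingDegree_mul hD0 hQ0, natDegree_mul hD0 hQ0,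
    natTrailingDegree_eq_zero.mpr (Or.inr h0)]
  have := natTrailingDegree_le_natDegree Q
  omega

/-- the Laurent polynomial `x - c` -/
noncomputable def lin (c : ℚ) : L := LaurentPolynomial.T 1 - LaurentPolynomial.C c

theorem toLaurent_lin (c : ℚ) : toLaurent (X - C c) = lin c := by
  simp [lin]

theorem coeff_toLaurent_nat (P : ℚ[X]) (j : ℕ) : (toLaurent P).coeff (j : ℤ) = P.coeff j := by
  rw [LaurentPolynomial.coeff_toLaurent]
  exact Finsupp.mapDomain_apply (f := Nat.castEmbedding) Nat.castEmbedding.injective _ j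

theorem sum_le_width {ι : Type*} [Fintype ι] (h : L) (hne : h ≠ 0) (lo hi : ℝ)
    (hs : ∀ b : ℤ, h.coeff b ≠ 0 → lo ≤ b ∧ (b : ℝ) ≤ hi) (x : ι → ℚ)
    (hx : Function.Injective x) (hx0 : ∀ i, x i ≠ 0) (n : ι → ℕ)
    (hd : ∀ i, lin (x i) ^ n i ∣ h) : (∑ i, (n i : ℝ)) ≤ hi - lo := by
  obtain ⟨N, P, hP⟩ := LaurentPolynomial.exists_T_pow h
  have hP0 : P ≠ 0 := by
    rintro rfl
    rw [map_zero] at hP
    exact hne ((LaurentPolynomial.isUnit_T (N : ℤ)).mul_left_eq_zero.mp hP.symm)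
  have hc : ∀ j : ℕ, P.coeff j = h.coeff ((j : ℤ) - N) := by
    intro j
    rw [← coeff_toLaurent_nat, hP, LaurentPolynomial.T, AddMonoidAlgebra.coeff_mul_single_apply,
      mul_one, sub_eq_add_neg]
  have hdiv : ∀ i, (X - C (x i)) ^ n i ∣ P := by
    intro i
    obtain ⟨q, hq⟩ := hd i
    obtain ⟨M, q', hq'⟩ := LaurentPolynomial.exists_T_pow q
    have h1 : P * X ^ M = (X - C (x i)) ^ n i * (q' * X ^ N) := by
      apply toLaurent_injective
      rw [map_mul, map_mul, map_mul, map_pow (toLaurent) (X - C (x i)), toLaurent_lin, hP, hq', hq,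
        toLaurent_X_pow, toLaurent_X_pow]
      ring
    have h2 : IsCoprime ((X - C (x i)) ^ n i) ((X : ℚ[X]) ^ M) := by
      apply IsCoprime.pow
      have := isCoprime_X_sub_C_of_isUnit_sub (a := x i) (b := 0)
        (by simpa using hx0 i)
      simpa using this
    exact h2.dvd_of_dvd_mul_right ⟨_, h1⟩
  have hprod : (∏ i, (X - C (x i)) ^ n i) ∣ P := by
    apply Finset.prod_dvd_of_coprime
    · intro i _ j _ hij
      exact (pairwise_coprime_X_sub_C hx hij).pow
    · intro i _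
      exact hdiv i
  have hch := chord hP0 hprod (by
    rw [coeff_zero_eq_eval_zero, eval_prod]
    exact Finset.prod_ne_zero_iff.mpr fun i _ => by simp [hx0 i])
  rw [natDegree_prod_of_monic _ _ (fun i _ => (monic_X_sub_C (x i)).pow _)] at hch
  simp only [natDegree_pow, natDegree_X_sub_C, mul_one] at hch
  have h1 := (hs _ (by
    rw [← hc]; exact mem_support_iff.mp (natTrailingDegree_mem_support_of_nonzero hP0))).1
  have h2 := (hs _ (by
    rw [← hc]; exact mem_support_iff.mp (natDegree_mem_support_of_nonzero hP0))).2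
  have h3 : ((P.natTrailingDegree : ℝ) + ∑ i, (n i : ℝ)) ≤ P.natDegree := by exact_mod_cast hch
  push_cast at h1 h2
  linarith

theorem triangle {r d : ℕ} {D δ : ℝ} (hD : D ^ 2 = r) (hD3 : 3 < D) (hδ : δ < D) (hδ0 : 0 ≤ δ)
    (hd : 1 ≤ d) (J : Finset ℕ) (γ : ℕ → L)
    (hγ : ∀ j ∈ J, ∀ b : ℤ, (γ j).coeff b ≠ 0 →
      0 ≤ (d - 3 * j : ℝ) ∧ (d - 3 * j : ℝ) * D ≤ b - 9 * j ∧
        (b - 9 * j : ℝ) ≤ (d - 3 * j) * (δ + 3))
    (hne : ∃ j ∈ J, γ j ≠ 0) (x : Fin r → ℚ) (hx : Function.Injective x) (hx0 : ∀ i, x i ≠ 0)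
    (m : Fin r → ℕ)
    (hm : ∀ i κ, lin (x i) ^ (m i - κ) ∣ (∑ j ∈ J, (1 + X) ^ j * C (γ j) : L[X]).coeff κ) :
    (∑ i, (m i : ℝ)) < d * D := by
  classical
  set G : L[X] := ∑ j ∈ J, (1 + X) ^ j * C (γ j) with hG
  let φ : ℤ → ℚ[X] := fun b => ∑ j ∈ J, monomial j ((γ j).coeff b)
  have hφ : ∀ b j, (φ b).coeff j = if j ∈ J then (γ j).coeff b else 0 := by
    intro b j
    simp only [φ, finsetSum_coeff, coeff_monomial]
    rw [Finset.sum_ite_eq']
  have hcomp : ∀ b κ, ((φ b).comp (X + C 1)).coeff κ = (G.coeff κ).coeff b := by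
    intro b κ
    simp only [φ, hG, Polynomial.sum_comp, finsetSum_coeff, monomial_comp, coeff_C_mul,
      coeff_mul_C, AddMonoidAlgebra.coeff_sum, Finsupp.finsetSum_apply, map_one,
      coeff_X_add_one_pow, coeff_one_add_X_pow]
    refine Finset.sum_congr rfl fun j _ => ?_
    rw [← nsmul_eq_mul, AddMonoidAlgebra.coeff_smul_apply, nsmul_eq_mul, mul_comm]
  have hG0 : ∃ κ, G.coeff κ ≠ 0 := by
    by_contra hc
    push Not at hc
    obtain ⟨j, hj, hγj⟩ := hne
    apply hγj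
    refine LaurentPolynomial.ext fun b => ?_
    have h1 : (φ b).comp (X + C 1) = 0 := by
      ext κ
      rw [hcomp, hc]
      simp
    have h2 : φ b = 0 := by
      have := congrArg (fun p => p.comp (X - C (1 : ℚ))) h1
      simpa [comp_assoc] using this
    have h3 := hφ b j
    rw [h2, if_pos hj] at h3
    simpa using h3.symm
  set κ := Nat.find hG0 with hκ
  have hκ1 : G.coeff κ ≠ 0 := Nat.find_spec hG0
  have hκ2 : ∀ k < κ, G.coeff k = 0 := fun k hk => by simpa using Nat.find_min hG0 hk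
  have hcol : ∀ b : ℤ, (G.coeff κ).coeff b ≠ 0 →
      D * κ ≤ d ∧ d * D - (D - 3) * (d - D * κ) ≤ b ∧ (b : ℝ) ≤ d * (δ + 3) - 3 * δ * κ := by
    intro b hb
    have h0 : φ b ≠ 0 := by
      intro h
      apply hb
      rw [← hcomp, h]
      simp
    have h1 : (X - C 1) ^ κ ∣ φ b := by
      rw [X_sub_C_pow_dvd_iff, X_pow_dvd_iff]
      intro k hk
      rw [hcomp, hκ2 k hk]
      simp
    have h2 := chord h0 h1 (by rw [coeff_zero_eq_eval_zero]; simp)
    rw [natDegree_pow, natDegree_X_sub_C, mul_one] at h2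
    have h3 := mem_support_iff.mp (natTrailingDegree_mem_support_of_nonzero h0)
    have h4 := mem_support_iff.mp (natDegree_mem_support_of_nonzero h0)
    rw [hφ] at h3 h4
    set jl := (φ b).natTrailingDegree
    set jh := (φ b).natDegree
    have hjl : jl ∈ J := by
      by_contra h
      exact h3 (if_neg h)
    have hjh : jh ∈ J := by
      by_contra h
      exact h4 (if_neg h)
    rw [if_pos hjl] at h3
    rw [if_pos hjh] at h4
    obtain ⟨-, a1, -⟩ := hγ jl hjl b h3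
    obtain ⟨a0, -, a2⟩ := hγ jh hjh b h4
    have h5 : (jl : ℝ) + κ ≤ jh := by exact_mod_cast h2
    have h6 : (0 : ℝ) ≤ jl := Nat.cast_nonneg _
    have h7 : (0 : ℝ) ≤ κ := Nat.cast_nonneg _
    have a3 : (b - 9 * jh : ℝ) ≤ (d - 3 * jh) * (D + 3) := by nlinarith
    have a4 : 9 * (jl : ℝ) ≤ 3 * d - 3 * D * κ := by nlinarith
    refine ⟨by nlinarith, by nlinarith, by nlinarith⟩
  obtain ⟨b0, hb0⟩ : ∃ b, (G.coeff κ).coeff b ≠ 0 := by
    by_contra h
    push Not at h
    exact hκ1 (LaurentPolynomial.ext fun b => by simpa using h b)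
  have hw := sum_le_width (G.coeff κ) hκ1 _ _ (fun b hb => (hcol b hb).2) x hx hx0
    (fun i => m i - κ) (fun i => hm i κ)
  have h1 : (∑ i, (m i : ℝ)) - r * κ ≤ ∑ i, ((m i - κ : ℕ) : ℝ) := by
    have : (r : ℝ) * κ = ∑ _i : Fin r, (κ : ℝ) := by simp
    rw [this, ← Finset.sum_sub_distrib]
    refine Finset.sum_le_sum fun i _ => ?_
    have : (m i : ℝ) ≤ ((m i - κ : ℕ) : ℝ) + κ := by exact_mod_cast (by omega : m i ≤ m i - κ + κ)
    linarith
  have h2 := (hcol b0 hb0).1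
  have h7 : (0 : ℝ) ≤ κ := Nat.cast_nonneg _
  have h8 : (1 : ℝ) ≤ d := by exact_mod_cast hd
  have h3 : 3 * (κ : ℝ) < d := by
    rcases h7.eq_or_lt with h | h
    · rw [← h]; linarith
    · nlinarith
  have h4 : 0 < (D - δ) * (d - 3 * κ) := mul_pos (by linarith) (by linarith)
  rw [← hD] at h1
  nlinarith

end Vale.Agent.P279
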