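import Mathlib

/-! Multiplicity filtrations and Taylor expansions. -/

namespace Vale.Agent.P279

section J

variable {B : Type*} [CommRing B]

/-- membership in the `m`-th power of the ideal `(π, s)` of `B[s]`, coefficientwise -/
def J (π : B) (m : ℕ) (f : Polynomial B) : Prop := ∀ κ, π ^ (m - κ) ∣ f.coeff κ

theorem J.level_zero (π : B) (f : Polynomial B) : J π 0 f := fun κ => by simp

theorem J.zero (π : B) (m : ℕ) : J π m 0 := fun κ => by simp

theorem J.add {π : B} {m : ℕ} {f g : Polynomial B} (hf : J π m f) (hg : J π m g) :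
    J π m (f + g) := fun κ => by
  rw [Polynomial.coeff_add]
  exact dvd_add (hf κ) (hg κ)

theorem J.sum {ι : Type*} {π : B} {m : ℕ} (I : Finset ι) (f : ι → Polynomial B)
    (h : ∀ i ∈ I, J π m (f i)) : J π m (∑ i ∈ I, f i) :=
  Finset.sum_induction f (J π m) (fun _ _ => J.add) (J.zero π m) h

theorem J.mono {π : B} {m m' : ℕ} {f : Polynomial B} (hf : J π m f) (h : m' ≤ m) : J π m' f :=
  fun κ => (pow_dvd_pow π (by omega)).trans (hf κ)

theorem J.mul {π : B} {m n : ℕ} {f g : Polynomial B} (hf : J π m f) (hg : J π n g) :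
    J π (m + n) (f * g) := by
  intro κ
  rw [Polynomial.coeff_mul]
  refine Finset.dvd_sum fun p hp => ?_
  rw [Finset.HasAntidiagonal.mem_antidiagonal] at hp
  refine (pow_dvd_pow π (show m + n - κ ≤ (m - p.1) + (n - p.2) by omega)).trans ?_
  rw [pow_add]
  exact mul_dvd_mul (hf _) (hg _)

/-- all `T`-coefficients lie in `J π m` -/
def JJ (π : B) (m : ℕ) (s : PowerSeries (Polynomial B)) : Prop :=
  ∀ n, J π m (PowerSeries.coeff n s)

theorem JJ.level_zero (π : B) (s : PowerSeries (Polynomial B)) : JJ π 0 s :=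
  fun _ => J.level_zero _ _

theorem JJ.sum {ι : Type*} {π : B} {m : ℕ} (I : Finset ι) (f : ι → PowerSeries (Polynomial B))
    (h : ∀ i ∈ I, JJ π m (f i)) : JJ π m (∑ i ∈ I, f i) := by
  intro n
  rw [map_sum]
  exact J.sum _ _ fun i hi => h i hi n

theorem JJ.mono {π : B} {m m' : ℕ} {s : PowerSeries (Polynomial B)} (hs : JJ π m s)
    (h : m' ≤ m) : JJ π m' s := fun n => (hs n).mono h

theorem JJ.mul {π : B} {m n : ℕ} {s t : PowerSeries (Polynomial B)} (hs : JJ π m s)
    (ht : JJ π n t) : JJ π (m + n) (s * t) := by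
  intro k
  rw [PowerSeries.coeff_mul]
  exact J.sum _ _ fun p _ => (hs _).mul (ht _)

theorem JJ.pow {π : B} {s : PowerSeries (Polynomial B)} (hs : JJ π 1 s) (k : ℕ) :
    JJ π k (s ^ k) := by
  induction k with
  | zero => exact JJ.level_zero _ _
  | succ k ih =>
    rw [pow_succ]
    exact ih.mul hs

end J

open MvPolynomial

section Taylor

variable {σ R : Type*} [CommRing R]

theorem pderiv_translate (p : σ → R) (i : σ) (f : MvPolynomial σ R) :
    pderiv i (bind₁ (fun j => X j + C (p j)) f) = bind₁ (fun j => X j + C (p j)) (pderiv i f) := by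
  classical
  induction f using MvPolynomial.induction_on with
  | C a => simp
  | add f g hf hg => simp [hf, hg]
  | mul_X f j hf =>
    by_cases h : j = i
    · subst h
      simp [hf]
    · simp [hf, h]

theorem foldr_translate (p : σ → R) (l : List σ) (f : MvPolynomial σ R) :
    l.foldr (fun j g => pderiv j g) (bind₁ (fun j => X j + C (p j)) f)
      = bind₁ (fun j => X j + C (p j)) (l.foldr (fun j g => pderiv j g) f) := by
  induction l with
  | nil => rfl
  | cons j l ih => rw [List.foldr_cons, List.foldr_cons, ih, pderiv_translate]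

theorem constantCoeff_translate (p : σ → R) (f : MvPolynomial σ R) :
    constantCoeff (bind₁ (fun j => X j + C (p j)) f) = eval p f := by
  induction f using MvPolynomial.induction_on with
  | C a => simp
  | add f g hf hg => simp [hf, hg]
  | mul_X f j hf => simp [hf]

theorem coeff_eq_zero_of_derivs [NoZeroDivisors R] [CharZero R] (m : ℕ) :
    ∀ g : MvPolynomial σ R,
      (∀ l : List σ, l.length < m → constantCoeff (l.foldr (fun j g => pderiv j g) g) = 0) →
      ∀ α : σ →₀ ℕ, α.degree < m → coeff α g = 0 := by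
  classical
  induction m with
  | zero => intro g _ α hα; omega
  | succ m ih =>
    intro g hg α hα
    by_cases h0 : α = 0
    · subst h0
      exact hg [] (by simp)
    · obtain ⟨i, hi⟩ : ∃ i, α i ≠ 0 := by
        by_contra h
        push Not at h
        exact h0 (Finsupp.ext h)
      have hβ : α = (α - Finsupp.single i 1) + Finsupp.single i 1 := by
        rw [tsub_add_cancel_of_le]
        rw [Finsupp.single_le_iff]
        omega
      set β := α - Finsupp.single i 1
      have hdeg : β.degree < m := by
        have : α.degree = β.degree + 1 := by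
          conv_lhs => rw [hβ]
          rw [map_add, Finsupp.degree_single]
        omega
      have h1 := ih (pderiv i g) (fun l hl => by
        have := hg (l ++ [i]) (by simp; omega)
        rwa [List.foldr_append] at this) β hdeg
      rw [coeff_pderiv, ← hβ] at h1
      refine (mul_eq_zero.mp h1).resolve_right ?_
      exact_mod_cast Nat.succ_ne_zero (β i)

end Taylor

theorem JJ_eval {B R : Type*} [CommRing B] [CommRing R] [NoZeroDivisors R] [CharZero R]
    (π : B) (m : ℕ) (ι : R →+* PowerSeries (Polynomial B)) (ψ : Fin 3 → PowerSeries (Polynomial B))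
    (p : Fin 3 → R) (hψ : ∀ j, JJ π 1 (ψ j - ι (p j))) (f : MvPolynomial (Fin 3) R)
    (hf : ∀ l : List (Fin 3), l.length < m → eval p (l.foldr (fun j g => pderiv j g) f) = 0) :
    JJ π m (eval₂ ι ψ f) := by
  set g := bind₁ (fun j => X j + C (p j)) f with hg
  have h1 : eval₂ ι ψ f = eval₂ ι (fun j => ψ j - ι (p j)) g := by
    have := eval₂Hom_bind₁ ι (fun j => ψ j - ι (p j)) (fun j => X j + C (p j)) f
    simp only [coe_eval₂Hom] at this
    rw [hg, this]
    simp
  have h2 := coeff_eq_zero_of_derivs m g (fun l hl => by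
    rw [hg, foldr_translate, constantCoeff_translate]
    exact hf l hl)
  rw [h1, eval₂_eq']
  refine JJ.sum _ _ fun α hα => ?_
  have h3 : m ≤ α.degree := by
    by_contra h
    exact (mem_support_iff.mp hα) (h2 α (not_le.mp h))
  rw [Fin.prod_univ_three]
  have := (JJ.level_zero π (ι (coeff α g))).mul
    ((((hψ 0).pow (α 0)).mul ((hψ 1).pow (α 1))).mul ((hψ 2).pow (α 2)))
  refine this.mono ?_
  rw [Finsupp.degree_eq_sum, Fin.sum_univ_three] at h3
  omega

section Expand

variable {R S : Type*} [CommRing R] [CommRing S]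

theorem dvd_eval₂_sub (φ : R →+* S) (t : S) (u v : Fin 3 → S) (h : ∀ i, t ∣ v i - u i)
    (o : R) (P : MvPolynomial (Fin 3) R) (ho : ∀ μ, o ∣ P.coeff μ) :
    φ o * t ∣ eval₂ φ v P - eval₂ φ u P := by
  rw [eval₂_eq', eval₂_eq', ← Finset.sum_sub_distrib]
  refine Finset.dvd_sum fun μ _ => ?_
  rw [← mul_sub]
  refine mul_dvd_mul (map_dvd φ (ho μ)) ?_
  rw [← Ideal.mem_span_singleton, ← Ideal.Quotient.eq]
  rw [map_prod, map_prod]
  refine Finset.prod_congr rfl fun i _ => ?_
  rw [map_pow, map_pow, Ideal.Quotient.eq.mpr (Ideal.mem_span_singleton.mpr (h i))]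

theorem dvd_eval₂_sub_sub (φ : R →+* S) (t y : S) (u : Fin 3 → S) (i0 : Fin 3)
    (P : MvPolynomial (Fin 3) R) :
    t * t ∣ eval₂ φ (fun j => u j + if j = i0 then t * y else 0) P - eval₂ φ u P
      - t * y * eval₂ φ u (pderiv i0 P) := by
  induction P using MvPolynomial.induction_on with
  | C a => simp
  | add f g hf hg =>
    have := dvd_add hf hg
    convert this using 1
    simp only [map_add, eval₂_add]
    ring
  | mul_X f j hf =>
    obtain ⟨k, hk⟩ := hf
    by_cases h : j = i0
    · subst h
      refine ⟨k * (u j + t * y) + y * y * eval₂ φ u (pderiv j f), ?_⟩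
      simp only [eval₂_mul, eval₂_X, if_true, Derivation.leibniz, pderiv_X_self, smul_eq_mul,
        eval₂_add, mul_one]
      linear_combination (u j + t * y) * hk
    · refine ⟨k * u j, ?_⟩
      simp only [eval₂_mul, eval₂_X, if_neg h, Derivation.leibniz, pderiv_X_of_ne h, smul_eq_mul,
        mul_zero, zero_add, add_zero]
      linear_combination (u j) * hk

end Expand

end Vale.Agent.P279
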