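import Mathlib
import Vale.Agent.P279.Theta

/-! Ternary forms evaluated at the theta series. -/

namespace Vale.Agent.P279

open PowerSeries

variable (a w : ℤ)

/-- a monomial in the theta series -/
noncomputable def thp (μ : Fin 3 →₀ ℕ) : A0 := ∏ i, theta a w i ^ μ i

/-- a form with coefficients in `O` evaluated at the theta series -/
noncomputable def ev (g : MvPolynomial (Fin 3) O) : A0 :=
  MvPolynomial.eval₂ ι0 (theta a w) g

theorem ev_eq (g : MvPolynomial (Fin 3) O) :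
    ev a w g = ∑ μ ∈ g.support, ι0 (g.coeff μ) * thp a w μ := by
  rw [ev, MvPolynomial.eval₂_eq']
  rfl

variable {a w}

theorem degree_fin3 (μ : Fin 3 →₀ ℕ) : μ.degree = μ 0 + μ 1 + μ 2 := by
  rw [Finsupp.degree_eq_sum, Fin.sum_univ_three]

theorem QP_thp (ha : 0 < a) (μ : Fin 3 →₀ ℕ) : QP a w (μ.degree : ℕ) (thp a w μ) := by
  rw [thp, Fin.prod_univ_three, degree_fin3]
  have := (((QP_theta (w := w) ha 0).pow (μ 0)).mul ((QP_theta ha 1).pow (μ 1))).mul
    ((QP_theta ha 2).pow (μ 2))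
  convert this using 1
  push_cast
  ring

theorem degree_of_mem_support {R : Type*} [CommSemiring R] {g : MvPolynomial (Fin 3) R} {k : ℕ}
    (hg : g.IsHomogeneous k) {μ : Fin 3 →₀ ℕ} (hμ : μ ∈ g.support) : μ.degree = k := by
  by_contra h
  exact (MvPolynomial.mem_support_iff.mp hμ) (hg.coeff_eq_zero h)

theorem QP_ev (ha : 0 < a) {g : MvPolynomial (Fin 3) O} {k : ℕ} (hg : g.IsHomogeneous k) :
    QP a w k (ev a w g) := by
  rw [ev_eq]
  refine QP.sum _ _ fun μ hμ => ?_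
  have := (QP.scalar (a := a) (w := w) (g.coeff μ)).mul (QP_thp ha μ)
  rwa [zero_add, degree_of_mem_support hg hμ] at this

/-- the coefficient of `x^b`, as a power series in `T` -/
noncomputable def col (b : ℤ) (s : A0) : O := PowerSeries.mk fun n => (coeff n s).coeff b

theorem coeff_col (b : ℤ) (s : A0) (n : ℕ) : coeff n (col b s) = (coeff n s).coeff b := by
  rw [col, coeff_mk]

theorem col_sum {ι : Type*} (b : ℤ) (I : Finset ι) (f : ι → A0) :
    col b (∑ i ∈ I, f i) = ∑ i ∈ I, col b (f i) := by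
  ext n
  rw [coeff_col, map_sum, map_sum, AddMonoidAlgebra.coeff_sum, Finsupp.finsetSum_apply]
  simp only [coeff_col]

theorem col_smul (b : ℤ) (c : O) (s : A0) : col b (ι0 c * s) = c * col b s := by
  ext n
  rw [coeff_col, coeff_mul, coeff_mul, AddMonoidAlgebra.coeff_sum, Finsupp.finsetSum_apply]
  refine Finset.sum_congr rfl fun p _ => ?_
  rw [coeff_col, ι0, coeff_map, ← LaurentPolynomial.smul_eq_C_mul,
    AddMonoidAlgebra.coeff_smul_apply, smul_eq_mul]

theorem LB_thp (ha : 0 < a) (β : ℤ) (bz : Fin 3 → ℤ) (cz : Fin 3 → ℚ)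
    (h : ∀ i : Fin 3, ∀ b : ℤ, (b = β ∨ b = β + 1) →
      (if b % 3 = (i : ℕ) then (1 : ℚ) else 0) = if b = bz i then cz i else 0)
    (h' : ∀ i, cz i ≠ 0 → bz i = β ∨ bz i = β + 1) :
    ∃ lam y : ℤ, ∀ μ : Fin 3 →₀ ℕ, LB (thp a w μ) lam ((μ.degree : ℕ) * y)
      (μ 0 * bz 0 + μ 1 * bz 1 + μ 2 * bz 2) (cz 0 ^ μ 0 * cz 1 ^ μ 1 * cz 2 ^ μ 2) := by
  refine ⟨(a * (β + 1) - w) ^ 2 - (a * β - w) ^ 2,
    (a * β - w) ^ 2 - ((a * (β + 1) - w) ^ 2 - (a * β - w) ^ 2) * β, fun μ => ?_⟩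
  rw [thp, Fin.prod_univ_three, degree_fin3]
  have := (((LB_theta (w := w) ha β 0 _ _ (h 0) (h' 0)).pow (μ 0)).mul
    ((LB_theta (w := w) ha β 1 _ _ (h 1) (h' 1)).pow (μ 1))).mul
    ((LB_theta (w := w) ha β 2 _ _ (h 2) (h' 2)).pow (μ 2))
  convert this using 1
  push_cast
  ring

theorem col_lead_aux {μs : Fin 3 →₀ ℕ} {lam y : ℤ} {bb : (Fin 3 →₀ ℕ) → ℤ}
    {cc : (Fin 3 →₀ ℕ) → ℚ}
    (H : ∀ μ : Fin 3 →₀ ℕ, LB (thp a w μ) lam ((μ.degree : ℕ) * y) (bb μ) (cc μ))
    (h1 : cc μs = 1)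
    (h2 : ∀ μ : Fin 3 →₀ ℕ, μ.degree = μs.degree → μ ≠ μs → bb μs = bb μ → cc μ = 0) :
    ∃ (n : ℕ) (b : ℤ), ∀ μ : Fin 3 →₀ ℕ, μ.degree = μs.degree →
      HasLead (col b (thp a w μ)) n (if μ = μs then 1 else 0) := by
  have h0 : co (thp a w μs) ((μs.degree : ℕ) * y + lam * bb μs) (bb μs) = 1 := by
    rw [((H μs) _ _).2 (by ring), if_pos rfl, h1]
  have hn : 0 ≤ (μs.degree : ℕ) * y + lam * bb μs := by
    by_contra hc
    rw [co_neg _ (not_le.mp hc)] at h0
    exact zero_ne_one h0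
  obtain ⟨n, hn'⟩ := Int.eq_ofNat_of_zero_le hn
  refine ⟨n, bb μs, fun μ hμ => ⟨fun m hm => ?_, ?_⟩⟩
  · rw [coeff_col, ← co_nat]
    apply ((H μ) _ _).1
    rw [hμ]
    omega
  · rw [coeff_col, ← co_nat, ((H μ) _ _).2 (by rw [hμ]; omega)]
    by_cases hμμ : μ = μs
    · subst hμμ
      rw [if_pos rfl, if_pos rfl, h1]
    · rw [if_neg hμμ]
      split_ifs with hb
      · exact h2 μ hμ hμμ hb
      · rfl

theorem fin3_ext {μ ν : Fin 3 →₀ ℕ} (h0 : μ 0 = ν 0) (h1 : μ 1 = ν 1) (h2 : μ 2 = ν 2) :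
    μ = ν := by
  ext i
  fin_cases i
  exacts [h0, h1, h2]

theorem col_lead (ha : 0 < a) (μs : Fin 3 →₀ ℕ) (hz : ∃ z, μs z = 0) :
    ∃ (n : ℕ) (b : ℤ), ∀ μ : Fin 3 →₀ ℕ, μ.degree = μs.degree →
      HasLead (col b (thp a w μ)) n (if μ = μs then 1 else 0) := by
  obtain ⟨z, hz⟩ := hz
  fin_cases z
  · have hz : μs 0 = 0 := hz
    obtain ⟨lam, y, H⟩ := LB_thp (w := w) ha 1 ![0, 1, 2] ![0, 1, 1]
      (by intro i b hb; fin_cases i <;> rcases hb with rfl | rfl <;> simp)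
      (by intro i; fin_cases i <;> simp)
    refine col_lead_aux H (by simp [hz]) fun μ hμ hne hb => ?_
    rw [degree_fin3, degree_fin3] at hμ
    by_contra hc
    have : μ 0 = 0 := by
      by_contra h
      simp [h] at hc
    simp only [Matrix.cons_val_zero, Matrix.cons_val_one, Matrix.cons_val] at hb
    exact hne (fin3_ext (by omega) (by omega) (by omega))
  · have hz : μs 1 = 0 := hz
    obtain ⟨lam, y, H⟩ := LB_thp (w := w) ha 2 ![3, 0, 2] ![1, 0, 1]
      (by intro i b hb; fin_cases i <;> rcases hb with rfl | rfl <;> simp)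
      (by intro i; fin_cases i <;> simp)
    refine col_lead_aux H (by simp [hz]) fun μ hμ hne hb => ?_
    rw [degree_fin3, degree_fin3] at hμ
    by_contra hc
    have : μ 1 = 0 := by
      by_contra h
      simp [h] at hc
    simp only [Matrix.cons_val_zero, Matrix.cons_val_one, Matrix.cons_val] at hb
    exact hne (fin3_ext (by omega) (by omega) (by omega))
  · have hz : μs 2 = 0 := hz
    obtain ⟨lam, y, H⟩ := LB_thp (w := w) ha 0 ![0, 1, 2] ![1, 1, 0]
      (by intro i b hb; fin_cases i <;> rcases hb with rfl | rfl <;> simp)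
      (by intro i; fin_cases i <;> simp)
    refine col_lead_aux H (by simp [hz]) fun μ hμ hne hb => ?_
    rw [degree_fin3, degree_fin3] at hμ
    by_contra hc
    have : μ 2 = 0 := by
      by_contra h
      simp [h] at hc
    simp only [Matrix.cons_val_zero, Matrix.cons_val_one, Matrix.cons_val] at hb
    exact hne (fin3_ext (by omega) (by omega) (by omega))

theorem mem_antidiag_iff (k : ℕ) (μ : Fin 3 →₀ ℕ) :
    μ ∈ Finset.finsuppAntidiag (Finset.univ : Finset (Fin 3)) k ↔ μ.degree = k := by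
  rw [Finset.mem_finsuppAntidiag, Finsupp.degree_eq_sum]
  simp

/-- uniform order bound for forms supported on monomials missing a variable -/
theorem exists_Omega (ha : 0 < a) (k : ℕ) :
    ∃ Ω : ℕ, ∀ g : MvPolynomial (Fin 3) O, g.IsHomogeneous k → (∀ μ ∈ g.support, ∃ z, μ z = 0) →
      g ≠ 0 → ∃ (o n : ℕ) (c : L), (∀ μ, (X : O) ^ o ∣ g.coeff μ) ∧ n ≤ o + Ω ∧ c ≠ 0 ∧
        HasLead (ev a w g) n c := by
  classical
  have h1 : ∀ μs : Fin 3 →₀ ℕ, ∃ (n : ℕ), (∃ z, μs z = 0) → ∃ b : ℤ, ∀ μ : Fin 3 →₀ ℕ,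
      μ.degree = μs.degree → HasLead (col b (thp a w μ)) n (if μ = μs then 1 else 0) := by
    intro μs
    by_cases hz : ∃ z, μs z = 0
    · obtain ⟨n, b, h⟩ := col_lead (w := w) ha μs hz
      exact ⟨n, fun _ => ⟨b, h⟩⟩
    · exact ⟨0, fun h => absurd h hz⟩
  choose nf hnf using h1
  refine ⟨(Finset.finsuppAntidiag (Finset.univ : Finset (Fin 3)) k).sup nf, fun g hg hb hne => ?_⟩
  have hex : ∃ o, ∃ μ, coeff o (g.coeff μ) ≠ 0 := by
    obtain ⟨μ, hμ⟩ := MvPolynomial.ne_zero_iff.mp hne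
    obtain ⟨o, ho⟩ := exists_coeff_ne_zero_iff_ne_zero.mpr hμ
    exact ⟨o, μ, ho⟩
  obtain ⟨μs, hμs⟩ := Nat.find_spec hex
  set o := Nat.find hex with ho
  have hlow : ∀ μ, ∀ m < o, coeff m (g.coeff μ) = 0 := by
    intro μ m hm
    by_contra hc
    exact Nat.find_min hex hm ⟨μ, hc⟩
  have hsupp : μs ∈ g.support := by
    rw [MvPolynomial.mem_support_iff]
    intro h
    rw [h] at hμs
    exact hμs (map_zero _)
  obtain ⟨b, hb'⟩ := hnf μs (hb μs hsupp)
  have hdeg := degree_of_mem_support hg hsupp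
  have hle : nf μs ≤ (Finset.finsuppAntidiag (Finset.univ : Finset (Fin 3)) k).sup nf :=
    Finset.le_sup ((mem_antidiag_iff k μs).mpr hdeg)
  have hcoef : coeff (o + nf μs) (ev a w g) ≠ 0 := by
    intro h0
    apply hμs
    have : coeff (o + nf μs) (col b (ev a w g)) = 0 := by rw [coeff_col, h0]; simp
    rw [ev_eq, col_sum, map_sum, Finset.sum_eq_single μs] at this
    · have hl : HasLead (g.coeff μs) o (coeff o (g.coeff μs)) := ⟨hlow μs, rfl⟩
      rw [col_smul, (hl.mul (hb' μs rfl)).2, if_pos rfl, mul_one] at this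
      exact this
    · intro μ hμ hμne
      have hl : HasLead (g.coeff μ) o (coeff o (g.coeff μ)) := ⟨hlow μ, rfl⟩
      rw [col_smul, (hl.mul (hb' μ ((degree_of_mem_support hg hμ).trans hdeg.symm))).2,
        if_neg hμne, mul_zero]
    · intro h
      exact absurd hsupp h
  obtain ⟨n, c, hn, hc, hl⟩ := exists_hasLead hcoef
  exact ⟨o, n, c, fun μ => X_pow_dvd_iff.mpr (hlow μ), by omega, hc, hl⟩

/-- the cubic equation of the Tate curve -/
theorem exists_cubic (ha : 0 < a) (b0 : ℤ)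
    (hw : ∀ b : ℤ, -(3 * a * 3) ≤ 2 * (a * b - 3 * w) → 2 * (a * b - 3 * w) ≤ 3 * a * 3 →
      b0 ≤ b ∧ b < b0 + 9) :
    ∃ F : MvPolynomial (Fin 3) O, F ≠ 0 ∧ F.IsHomogeneous 3 ∧ ev a w F = 0 := by
  classical
  set S := Finset.finsuppAntidiag (Finset.univ : Finset (Fin 3)) 3 with hS
  have hcard : Fintype.card S = 10 := by
    rw [Fintype.card_coe, hS, Finset.card_finsuppAntidiag_nat_eq_choose]
    simp
    rfl
  let v : S → (Fin 9 → O) := fun μ i => col (b0 + (i : ℕ)) (thp a w μ.1)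
  have hnot : ¬ LinearIndependent O v := by
    intro h
    have := h.fintype_card_le_finrank
    rw [hcard, Module.finrank_fin_fun] at this
    omega
  obtain ⟨c, hc, μ0, hμ0⟩ := Fintype.not_linearIndependent_iff.mp hnot
  have hhom : (∑ μ : S, MvPolynomial.monomial μ.1 (c μ)).IsHomogeneous 3 :=
    MvPolynomial.IsHomogeneous.sum _ _ _ fun μ _ =>
      MvPolynomial.isHomogeneous_monomial _ ((mem_antidiag_iff 3 μ.1).mp μ.2)
  refine ⟨∑ μ : S, MvPolynomial.monomial μ.1 (c μ), ?_, hhom, ?_⟩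
  · intro h
    apply hμ0
    have := congrArg (MvPolynomial.coeff μ0.1) h
    rw [MvPolynomial.coeff_sum, Finset.sum_eq_single μ0] at this
    · simpa using this
    · intro μ _ hne
      rw [MvPolynomial.coeff_monomial, if_neg (fun h => hne (Subtype.ext h))]
    · simp
  · by_contra hne
    obtain ⟨n₁, hn₁⟩ := exists_coeff_ne_zero_iff_ne_zero.mpr hne
    obtain ⟨n, c', -, hc', hl⟩ := exists_hasLead hn₁
    obtain ⟨b, hb⟩ : ∃ b, c'.coeff b ≠ 0 := by
      by_contra h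
      push Not at h
      exact hc' (LaurentPolynomial.ext fun b => by simpa using h b)
    have hwin := (QP_ev ha hhom).window ha hl hb
    obtain ⟨h1, h2⟩ := hw b (by exact_mod_cast hwin.1) (by exact_mod_cast hwin.2)
    obtain ⟨i, hi⟩ : ∃ i : Fin 9, b = b0 + (i : ℕ) :=
      ⟨⟨(b - b0).toNat, by omega⟩, by simp only; omega⟩
    apply hb
    rw [← hl.2, ← coeff_col]
    have h3 : col b (ev a w (∑ μ : S, MvPolynomial.monomial μ.1 (c μ))) = 0 := by
      have := congrFun hc i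
      rw [Finset.sum_apply] at this
      rw [ev, MvPolynomial.eval₂_sum, col_sum, ← Pi.zero_apply (M := fun _ : Fin 9 => O) i, ← this]
      refine Finset.sum_congr rfl fun μ _ => ?_
      rw [MvPolynomial.eval₂_monomial, Finsupp.prod_fintype _ _ (by simp), col_smul, hi]
      rfl
    rw [h3, map_zero]

end Vale.Agent.P279
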