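import Mathlib
import Vale.Agent.P279.Forms
import Vale.Agent.P279.Column
import Vale.Agent.P279.Filt

/-! A configuration of points over `Q[[T]]` through which no curve passes. -/

namespace Vale.Agent.P279

open MvPolynomial

/-- evaluation of a Laurent polynomial at a nonzero rational -/
noncomputable def eps (u : ℚˣ) : L →+* ℚ := LaurentPolynomial.eval₂ (RingHom.id ℚ) u

theorem eps_of_T_pow (u : ℚˣ) {h : L} {N : ℕ} {P : Polynomial ℚ}
    (hP : Polynomial.toLaurent P = h * LaurentPolynomial.T N) :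
    P.eval (u : ℚ) = eps u h * (u : ℚ) ^ N := by
  have := congrArg (eps u) hP
  rw [map_mul, eps, LaurentPolynomial.eval₂_toLaurent, LaurentPolynomial.eval₂_T_n] at this
  exact this

theorem lin_dvd (u : ℚˣ) (h : L) : lin u ∣ h - LaurentPolynomial.C (eps u h) := by
  obtain ⟨N, P, hP⟩ := LaurentPolynomial.exists_T_pow h
  have h1 : Polynomial.X - Polynomial.C (u : ℚ) ∣
      P - Polynomial.C (eps u h) * Polynomial.X ^ N := by
    rw [Polynomial.dvd_iff_isRoot, Polynomial.IsRoot.def]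
    simp [eps_of_T_pow u hP]
  have h2 := map_dvd Polynomial.toLaurent h1
  rw [toLaurent_lin, map_sub, hP, map_mul, Polynomial.toLaurent_C, Polynomial.toLaurent_X_pow,
    ← sub_mul] at h2
  exact (LaurentPolynomial.isUnit_T (N : ℤ)).dvd_mul_right.mp h2

theorem exists_points (r : ℕ) {h : L} (hne : h ≠ 0) :
    ∃ x : Fin r → ℚˣ, Function.Injective (fun i => (x i : ℚ)) ∧ ∀ i, eps (x i) h ≠ 0 := by
  obtain ⟨N, P, hP⟩ := LaurentPolynomial.exists_T_pow h
  have hP0 : P * Polynomial.X ≠ 0 := by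
    refine mul_ne_zero ?_ Polynomial.X_ne_zero
    rintro rfl
    rw [map_zero] at hP
    exact hne ((LaurentPolynomial.isUnit_T (N : ℤ)).mul_left_eq_zero.mp hP.symm)
  have hinf : {c : ℚ | (P * Polynomial.X).IsRoot c}ᶜ.Infinite :=
    (Polynomial.finite_setOfPred_isRoot hP0).infinite_compl
  let e := hinf.natEmbedding
  have he : ∀ n, P.eval (e n : ℚ) ≠ 0 ∧ (e n : ℚ) ≠ 0 := by
    intro n
    have := (e n).2
    simpa [Polynomial.IsRoot.def, not_or] using this
  refine ⟨fun i => Units.mk0 (e i : ℚ) (he i).2, fun i j hij => ?_, fun i h0 => ?_⟩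
  · exact Fin.ext (e.injective (Subtype.ext hij))
  · have := eps_of_T_pow (Units.mk0 (e i : ℚ) (he i).2) hP
    rw [h0, zero_mul] at this
    exact (he i).1 this

theorem exists_eta {r : ℕ} {h : L} (x : Fin r → ℚˣ) (hx : ∀ i, eps (x i) h ≠ 0)
    (m : Fin r → ℕ) : ∃ η : L, ∀ i, lin (x i) ^ m i ∣ η * h - 1 := by
  have h1 : ∀ i, IsCoprime h (lin (x i)) := by
    intro i
    obtain ⟨q, hq⟩ := lin_dvd (x i) h
    refine ⟨LaurentPolynomial.C (eps (x i) h)⁻¹, -(LaurentPolynomial.C (eps (x i) h)⁻¹ * q), ?_⟩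
    have h2 : LaurentPolynomial.C (eps (x i) h)⁻¹ * LaurentPolynomial.C (eps (x i) h)
        = (1 : L) := by
      rw [← map_mul, inv_mul_cancel₀ (hx i), map_one]
    linear_combination (LaurentPolynomial.C (eps (x i) h)⁻¹) * hq + h2
  have h2 : IsCoprime h (∏ i, lin (x i) ^ m i) :=
    IsCoprime.prod_right fun i _ => (h1 i).pow_right
  obtain ⟨η, z, hz⟩ := h2
  refine ⟨η, fun i => ?_⟩
  have : η * h - 1 = -z * ∏ i, lin (x i) ^ m i := by linear_combination hz
  rw [this]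
  exact Dvd.dvd.mul_left (Finset.dvd_prod_of_mem _ (Finset.mem_univ i)) _

theorem window_real {a w : ℤ} {δ : ℝ} (ha : 0 < a) (hw : (w : ℝ) = a * (δ + 3 / 2)) {k b : ℤ} :
    (-(3 * a * k) ≤ 2 * (a * b - k * w) → k * δ ≤ b) ∧
      (2 * (a * b - k * w) ≤ 3 * a * k → (b : ℝ) ≤ k * (δ + 3)) := by
  have ha' : (0 : ℝ) < a := by exact_mod_cast ha
  constructor
  · intro h
    have h' : -(3 * (a : ℝ) * k) ≤ 2 * (a * b - k * w) := by exact_mod_cast h
    rw [hw] at h'
    by_contra hc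
    nlinarith
  · intro h
    have h' : 2 * ((a : ℝ) * b - k * w) ≤ 3 * a * k := by exact_mod_cast h
    rw [hw] at h'
    by_contra hc
    nlinarith

/-- the power of `XYZ` dividing a monomial -/
def jj (μ : Fin 3 →₀ ℕ) : ℕ := min (μ 0) (min (μ 1) (μ 2))

/-- the monomial divided by that power -/
noncomputable def red (μ : Fin 3 →₀ ℕ) : Fin 3 →₀ ℕ :=
  Finsupp.equivFunOnFinite.symm fun i => μ i - jj μ

theorem red_apply (μ : Fin 3 →₀ ℕ) (i : Fin 3) : red μ i = μ i - jj μ := by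
  simp [red]

theorem red_degree (μ : Fin 3 →₀ ℕ) : (red μ).degree + 3 * jj μ = μ.degree := by
  rw [degree_fin3, degree_fin3, red_apply, red_apply, red_apply, jj]
  omega

theorem red_boundary (μ : Fin 3 →₀ ℕ) : ∃ z, red μ z = 0 := by
  by_contra h
  push Not at h
  have h0 := h 0
  have h1 := h 1
  have h2 := h 2
  rw [red_apply, jj] at h0 h1 h2
  omega

theorem red_inj {μ ν : Fin 3 →₀ ℕ} (h : jj μ = jj ν) (h' : red μ = red ν) : μ = ν := by
  have h0 := congrArg (fun f => f 0) h'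
  have h1 := congrArg (fun f => f 1) h'
  have h2 := congrArg (fun f => f 2) h'
  simp only [red_apply] at h0 h1 h2
  unfold jj at *
  exact fin3_ext (by omega) (by omega) (by omega)

/-- exponent vectors of degree `d` -/
abbrev Mon (d : ℕ) : Type := Finset.finsuppAntidiag (Finset.univ : Finset (Fin 3)) d

theorem Mon.degree {d : ℕ} (μ : Mon d) : μ.1.degree = d := (mem_antidiag_iff d μ.1).mp μ.2

theorem homog_ext {R : Type*} [CommRing R] {d : ℕ} {f g : MvPolynomial (Fin 3) R}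
    (hf : f.IsHomogeneous d) (hg : g.IsHomogeneous d)
    (h : ∀ ν : Mon d, f.coeff ν.1 = g.coeff ν.1) : f = g := by
  ext ν
  by_cases hν : ν.degree = d
  · exact h ⟨ν, (mem_antidiag_iff d ν).mpr hν⟩
  · rw [hf.coeff_eq_zero hν, hg.coeff_eq_zero hν]

/-- every form is, up to a nonzero scalar, a combination of the adapted family -/
theorem adapted {d : ℕ} (Bs : Mon d → MvPolynomial (Fin 3) O) (hB : ∀ μ, (Bs μ).IsHomogeneous d)
    (hinj : ∀ c : Mon d → O, ∑ μ, C (c μ) * Bs μ = 0 → c = 0)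
    (f : MvPolynomial (Fin 3) O) (hf : f.IsHomogeneous d) (hne : f ≠ 0) :
    ∃ (c : Mon d → O) (e : O), c ≠ 0 ∧ ∑ μ, C (c μ) * Bs μ = C e * f := by
  classical
  let M : Matrix (Mon d) (Mon d) O := fun ν μ => (Bs μ).coeff ν.1
  have hhom : ∀ c : Mon d → O, (∑ μ, C (c μ) * Bs μ).IsHomogeneous d := fun c =>
    IsHomogeneous.sum _ _ _ fun μ _ => (hB μ).C_mul _
  have hcoef : ∀ (c : Mon d → O) (ν : Mon d),
      (∑ μ, C (c μ) * Bs μ).coeff ν.1 = M.mulVec c ν := by
    intro c ν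
    rw [coeff_sum, Matrix.mulVec, dotProduct]
    refine Finset.sum_congr rfl fun μ _ => ?_
    rw [coeff_C_mul, mul_comm]
  have hdet : M.det ≠ 0 := by
    intro h
    obtain ⟨v, hv, hv'⟩ := Matrix.exists_mulVec_eq_zero_iff.mpr h
    apply hv
    apply hinj
    refine homog_ext (hhom v) (isHomogeneous_zero _ _ d) fun ν => ?_
    rw [hcoef, hv']
    simp
  let v : Mon d → O := fun ν => f.coeff ν.1
  have hmain : ∑ μ, C (M.adjugate.mulVec v μ) * Bs μ = C M.det * f := by
    refine homog_ext (hhom _) (hf.C_mul _) fun ν => ?_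
    rw [hcoef, Matrix.mulVec_mulVec, Matrix.mul_adjugate, coeff_C_mul, Matrix.smul_mulVec,
      Matrix.one_mulVec]
    rfl
  refine ⟨M.adjugate.mulVec v, M.det, fun h => ?_, hmain⟩
  rw [h] at hmain
  simp only [Pi.zero_apply, map_zero, zero_mul, Finset.sum_const_zero] at hmain
  exact mul_ne_zero (by simpa using hdet) hne hmain.symm

instance charZero_O : CharZero O := algebraRat.charZero O

abbrev A : Type := PowerSeries (Polynomial L)

/-- constants in `s` -/
noncomputable def jm : A0 →+* A := PowerSeries.map Polynomial.C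

theorem eval_jm (a w : ℤ) (g : MvPolynomial (Fin 3) O) :
    eval₂ (jm.comp ι0) (fun j => jm (theta a w j)) g = jm (ev a w g) := by
  rw [ev, eval₂_comp_left]
  rfl

theorem key_sum {r d : ℕ} {D δ : ℝ} (hD : D ^ 2 = r) (hD3 : 3 < D) (hδ : δ < D)
    (hδ0 : 0 ≤ δ) (hd : 1 ≤ d) (m : Fin r → ℕ) (hm : d * D ≤ ∑ i, (m i : ℝ))
    (x : Fin r → ℚˣ) (hx : Function.Injective (fun i => (x i : ℚ))) (hb η : L)
    (hη : ∀ i, lin (x i) ^ m i ∣ η * hb - 1) (y : Polynomial L)
    (hy : y = (1 + Polynomial.X) * Polynomial.C (LaurentPolynomial.T 9 * η))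
    (eF : A) (NF : ℕ) (hleadF : HasLead eF NF (y * Polynomial.C hb)) (g : ℕ → A)
    (hg : ∀ j, ∃ (n : ℕ) (c' : L), g j ≠ 0 → 3 * j ≤ d ∧ c' ≠ 0 ∧
        HasLead (g j) n (Polynomial.C c') ∧
        ∀ b : ℤ, c'.coeff b ≠ 0 → ((d - 3 * j : ℕ) : ℝ) * D ≤ b ∧
          (b : ℝ) ≤ (d - 3 * j : ℕ) * (δ + 3))
    (hI : ∃ j ∈ Finset.range (d + 1), g j ≠ 0)
    (hJ : ∀ i, JJ (lin (x i)) (m i) (∑ j ∈ Finset.range (d + 1), eF ^ j * g j)) : False := by
  classical
  choose n c' hg using hg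
  let I := (Finset.range (d + 1)).filter fun j => g j ≠ 0
  have hI : I.Nonempty := by
    obtain ⟨j, h1, h2⟩ := hI
    exact ⟨j, Finset.mem_filter.mpr ⟨h1, h2⟩⟩
  obtain ⟨j0, hj0, hmin⟩ := Finset.exists_min_image I (fun j => j * NF + n j) hI
  let J0 := I.filter fun j => j * NF + n j = j0 * NF + n j0
  have hJ0 : ∀ j ∈ J0, g j ≠ 0 := fun j hj =>
    (Finset.mem_filter.mp (Finset.mem_filter.mp hj).1).2
  have hcoef : PowerSeries.coeff (j0 * NF + n j0) (∑ j ∈ Finset.range (d + 1), eF ^ j * g j)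
      = ∑ j ∈ J0, (y * Polynomial.C hb) ^ j * Polynomial.C (c' j) := by
    simp only [J0, I]
    rw [map_sum, Finset.filter_filter, Finset.sum_filter]
    refine Finset.sum_congr rfl fun j hj => ?_
    by_cases h0 : g j = 0
    · rw [if_neg (fun h => h.1 h0), h0, mul_zero, map_zero]
    · have hl := (hleadF.pow j).mul (hg j h0).2.2.1
      have hle := hmin j (Finset.mem_filter.mpr ⟨hj, h0⟩)
      by_cases he : j * NF + n j = j0 * NF + n j0
      · rw [if_pos ⟨h0, he⟩, ← he]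
        exact hl.2
      · rw [if_neg (fun h => he h.2)]
        exact hl.1 _ (lt_of_le_of_ne hle (Ne.symm he))
  have := triangle hD hD3 hδ hδ0 hd J0 (fun j => LaurentPolynomial.T (9 * j) * c' j) (by
      intro j hj b hb
      obtain ⟨h1, -, -, h2⟩ := hg j (hJ0 j hj)
      rw [LaurentPolynomial.T, AddMonoidAlgebra.coeff_single_mul_apply, one_mul] at hb
      have h3 := h2 _ hb
      have h4 : ((d - 3 * j : ℕ) : ℝ) = d - 3 * j := by push_cast [h1]; ring
      rw [h4] at h3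
      push_cast at h3
      refine ⟨by rw [← h4]; positivity, by linarith, by linarith⟩)
    ⟨j0, Finset.mem_filter.mpr ⟨hj0, rfl⟩, mul_ne_zero (LaurentPolynomial.isUnit_T _).ne_zero
      (hg j0 (Finset.mem_filter.mp hj0).2).2.1⟩
    (fun i => (x i : ℚ)) hx (fun i => (x i).ne_zero) m (by
      intro i κ
      have h1 := hJ i (j0 * NF + n j0) κ
      rw [hcoef] at h1
      have h2 : lin (x i) ^ (m i - κ) ∣
          (∑ j ∈ J0, (y * Polynomial.C hb) ^ j * Polynomial.C (c' j)).coeff κ -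
          (∑ j ∈ J0, (1 + Polynomial.X) ^ j *
            Polynomial.C (LaurentPolynomial.T (9 * j) * c' j) : Polynomial L).coeff κ := by
        rw [← Polynomial.coeff_sub, ← Finset.sum_sub_distrib, Polynomial.finsetSum_coeff]
        refine Finset.dvd_sum fun j _ => ?_
        have h3 : (y * Polynomial.C hb) ^ j * Polynomial.C (c' j) - (1 + Polynomial.X) ^ j *
            Polynomial.C (LaurentPolynomial.T (9 * j) * c' j) = (1 + Polynomial.X) ^ j *
            Polynomial.C (LaurentPolynomial.T (9 * j) * c' j * ((η * hb) ^ j - 1)) := by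
          rw [mul_comm (9 : ℤ), ← LaurentPolynomial.T_pow, hy]
          simp only [map_mul, map_sub, map_pow, map_one, mul_pow]
          ring
        rw [h3, Polynomial.coeff_mul_C]
        refine Dvd.dvd.mul_left (Dvd.dvd.mul_left ?_ _) _
        refine ((pow_dvd_pow _ (Nat.sub_le _ _)).trans (hη i)).trans ?_
        simpa using sub_dvd_pow_sub_pow (η * hb) 1 j
      exact (dvd_sub_right h1).mp h2)
  linarith

theorem decomp {R : Type*} [CommRing R] {d : ℕ} (F : MvPolynomial (Fin 3) R) (c : Mon d → R) :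
    ∃ g : ℕ → MvPolynomial (Fin 3) R,
      ∑ μ : Mon d, C (c μ) * (F ^ jj μ.1 * monomial (red μ.1) 1)
        = ∑ j ∈ Finset.range (d + 1), F ^ j * g j ∧
      (∀ j, g j ≠ 0 → 3 * j ≤ d) ∧ (∀ j, (g j).IsHomogeneous (d - 3 * j)) ∧
      (∀ j, ∀ ν ∈ (g j).support, ∃ z, ν z = 0) ∧
      (c ≠ 0 → ∃ j ∈ Finset.range (d + 1), g j ≠ 0) := by
  classical
  have hdeg : ∀ μ : Mon d, (red μ.1).degree + 3 * jj μ.1 = d := by
    intro μ
    have h2 := red_degree μ.1
    rwa [μ.degree] at h2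
  refine ⟨fun j => ∑ μ : Mon d, if jj μ.1 = j then monomial (red μ.1) (c μ) else 0,
    ?_, ?_, ?_, ?_, ?_⟩
  · simp only [Finset.mul_sum]
    rw [Finset.sum_comm]
    refine Finset.sum_congr rfl fun μ _ => ?_
    simp only [mul_ite, mul_zero]
    rw [Finset.sum_ite_eq, if_pos, mul_left_comm, C_mul_monomial, mul_one]
    have := hdeg μ
    exact Finset.mem_range.mpr (by omega)
  · intro j h0
    obtain ⟨μ0, -, hμ0⟩ := Finset.exists_ne_zero_of_sum_ne_zero h0
    have h1 : jj μ0.1 = j := by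
      by_contra h
      exact hμ0 (if_neg h)
    have := hdeg μ0
    omega
  · intro j
    refine IsHomogeneous.sum _ _ _ fun μ _ => ?_
    split_ifs with h
    · refine isHomogeneous_monomial _ ?_
      have := hdeg μ
      omega
    · exact isHomogeneous_zero _ _ _
  · intro j ν hν
    obtain ⟨μ, -, hμ⟩ := Finset.mem_biUnion.mp (support_sum hν)
    split_ifs at hμ with h
    · have := support_monomial_subset hμ
      rw [Finset.mem_singleton] at this
      rw [this]
      exact red_boundary _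
    · simp at hμ
  · intro hc
    obtain ⟨μ0, hμ0⟩ := Function.ne_iff.mp hc
    refine ⟨jj μ0.1, ?_, fun h => hμ0 ?_⟩
    · have := hdeg μ0
      exact Finset.mem_range.mpr (by omega)
    · have := congrArg (coeff (red μ0.1)) h
      rw [coeff_sum, Finset.sum_eq_single μ0, if_pos rfl, coeff_monomial, if_pos rfl] at this
      · exact this
      · intro μ _ hne
        split_ifs with h1
        · rw [coeff_monomial, if_neg]
          intro h'
          exact hne (Subtype.ext (red_inj h1 h'))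
        · rfl
      · intro h'
        exact absurd (Finset.mem_univ μ0) h'

theorem key_form {r d : ℕ} {D δ : ℝ} (hD : D ^ 2 = r) (hD3 : 3 < D) (hδ : δ < D)
    (hδ0 : 0 ≤ δ) (hd : 1 ≤ d) (m : Fin r → ℕ) (hm : d * D ≤ ∑ i, (m i : ℝ))
    (x : Fin r → ℚˣ) (hx : Function.Injective (fun i => (x i : ℚ))) (hb η : L)
    (hη : ∀ i, lin (x i) ^ m i ∣ η * hb - 1) (y : Polynomial L)
    (hy : y = (1 + Polynomial.X) * Polynomial.C (LaurentPolynomial.T 9 * η))
    (ιA : O →+* A) (ψ : Fin 3 → A) (F : MvPolynomial (Fin 3) O)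
    (NF : ℕ) (hleadF : HasLead (eval₂ ιA ψ F) NF (y * Polynomial.C hb))
    (hleadg : ∀ k ≤ d, ∀ g : MvPolynomial (Fin 3) O, g.IsHomogeneous k →
      (∀ μ ∈ g.support, ∃ z, μ z = 0) → g ≠ 0 → ∃ (n : ℕ) (c : L), c ≠ 0 ∧
        HasLead (eval₂ ιA ψ g) n (Polynomial.C c) ∧
        ∀ b : ℤ, c.coeff b ≠ 0 → k * D ≤ b ∧ (b : ℝ) ≤ k * (δ + 3))
    (c : Mon d → O) (hc : c ≠ 0)
    (hJ : ∀ i, JJ (lin (x i)) (m i)
      (eval₂ ιA ψ (∑ μ : Mon d, C (c μ) * (F ^ jj μ.1 * monomial (red μ.1) 1)))) : False := by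
  classical
  obtain ⟨g, hsum, hg3, hghom, hgb, hI⟩ := decomp F c
  have hI := hI hc
  have hg : ∀ j, ∃ (n : ℕ) (c' : L), g j ≠ 0 → 3 * j ≤ d ∧ c' ≠ 0 ∧
      HasLead (eval₂ ιA ψ (g j)) n (Polynomial.C c') ∧
      ∀ b : ℤ, c'.coeff b ≠ 0 → ((d - 3 * j : ℕ) : ℝ) * D ≤ b ∧
        (b : ℝ) ≤ (d - 3 * j : ℕ) * (δ + 3) := by
    intro j
    by_cases h0 : g j = 0
    · exact ⟨0, 0, fun h => absurd h0 h⟩
    · obtain ⟨n, c', h⟩ := hleadg (d - 3 * j) (by omega) (g j) (hghom j) (hgb j) h0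
      exact ⟨n, c', fun _ => ⟨hg3 j h0, h⟩⟩
  have hne : ∀ j, eval₂ ιA ψ (g j) ≠ 0 ↔ g j ≠ 0 := by
    intro j
    constructor
    · intro h h0
      rw [h0, eval₂_zero] at h
      exact h rfl
    · intro h h0
      obtain ⟨n, c', h1⟩ := hg j
      obtain ⟨-, h2, h3, -⟩ := h1 h
      have h4 := h3.2
      rw [h0, map_zero] at h4
      exact h2 (Polynomial.C_eq_zero.mp h4.symm)
  refine key_sum hD hD3 hδ hδ0 hd m hm x hx hb η hη y hy (eval₂ ιA ψ F) NF hleadF
    (fun j => eval₂ ιA ψ (g j)) (fun j => ?_) ?_ ?_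
  · obtain ⟨n, c', h1⟩ := hg j
    exact ⟨n, c', fun h => h1 ((hne j).mp h)⟩
  · obtain ⟨j, h1, h2⟩ := hI
    exact ⟨j, h1, (hne j).mpr h2⟩
  · intro i
    have := hJ i
    rw [hsum, eval₂_sum] at this
    simpa only [eval₂_mul, eval₂_pow] using this

theorem exists_config {r d : ℕ} {D δ : ℝ} (hD : D ^ 2 = r) (hD3 : 3 < D) (hδ : δ < D)
    (hδ0 : 0 ≤ δ) (hd : 1 ≤ d) {a w : ℤ} (ha : 0 < a) (hw : (w : ℝ) = a * (δ + 3 / 2))
    (hgap : ∀ k : ℕ, k ≤ d + 3 → ∀ b : ℤ, k * δ ≤ b → k * D ≤ b) (m : Fin r → ℕ)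
    (hm : d * D ≤ ∑ i, (m i : ℝ)) :
    ∃ p : Fin r → Fin 3 → O, ∀ f : MvPolynomial (Fin 3) O, f.IsHomogeneous d →
      (∀ (i : Fin r) (l : List (Fin 3)), l.length < m i →
        eval (p i) (l.foldr (fun j g => pderiv j g) f) = 0) → f = 0 := by
  classical
  -- the cubic
  obtain ⟨F, hF0, hF3, hF⟩ := exists_cubic (w := w) ha ⌈3 * D⌉ (by
    intro b h1 h2
    have h3 := (window_real (k := 3) ha hw).1 h1
    have h4 := (window_real (k := 3) ha hw).2 h2
    have h5 := hgap 3 (by omega) b (by exact_mod_cast h3)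
    constructor
    · exact Int.ceil_le.mpr (by exact_mod_cast h5)
    · have h6 := Int.le_ceil (3 * D)
      have : (b : ℝ) < ⌈3 * D⌉ + 9 := by push_cast at h4; linarith
      exact_mod_cast this)
  obtain ⟨i0, hi0⟩ : ∃ i0, pderiv i0 F ≠ 0 := by
    by_contra h
    push Not at h
    have := hF3.sum_X_mul_pderiv
    simp only [h, mul_zero, Finset.sum_const_zero] at this
    apply hF0
    have h3 : (C (3 : O) : MvPolynomial (Fin 3) O) * F = 0 := by
      rw [this, nsmul_eq_mul, map_ofNat]; rfl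
    refine (mul_eq_zero.mp h3).resolve_left ?_
    rw [C_eq_zero]
    simp
  choose Ω hΩ using exists_Omega (w := w) ha
  obtain ⟨-, nh, hb, -, -, hb0, hlead⟩ := hΩ 2 (pderiv i0 F) hF3.pderiv (by
    intro μ hμ
    have := degree_of_mem_support (hF3.pderiv (i := i0)) hμ
    rw [degree_fin3] at this
    by_contra h
    push Not at h
    have h0 := h 0
    have h1 := h 1
    have h2 := h 2
    omega) hi0
  obtain ⟨x, hx, hxb⟩ := exists_points r hb0
  obtain ⟨η, hη⟩ := exists_eta x hxb m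
  set N : ℕ := 1 + nh + ∑ k ∈ Finset.range (d + 1), Ω k with hN
  have hNΩ : ∀ k ≤ d, Ω k < N := by
    intro k hk
    have := Finset.single_le_sum (f := Ω) (fun _ _ => Nat.zero_le _)
      (Finset.mem_range.mpr (show k < d + 1 by omega))
    omega
  set y : Polynomial L := (1 + Polynomial.X) * Polynomial.C (LaurentPolynomial.T 9 * η) with hy
  set ψ : Fin 3 → A := fun j => jm (theta a w j) +
    if j = i0 then PowerSeries.X ^ N * PowerSeries.C y else 0 with hψ
  set ιA : O →+* A := jm.comp ι0 with hιA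
  let evi : Fin r → Polynomial L →+* ℚ := fun i => Polynomial.eval₂RingHom (eps (x i)) 0
  set p : Fin r → Fin 3 → O := fun i j => PowerSeries.map (evi i) (ψ j) with hp
  have hJ1 : ∀ i j, JJ (lin (x i)) 1 (ψ j - ιA (p i j)) := by
    intro i j n κ
    rcases Nat.eq_zero_or_pos κ with rfl | hκ
    · simp only [hp, hιA, jm, ι0, evi, map_sub, RingHom.comp_apply, PowerSeries.coeff_map,
        Polynomial.coeff_sub, Polynomial.coeff_C_zero, Polynomial.coe_eval₂RingHom,
        Polynomial.eval₂_at_zero, Nat.sub_zero, pow_one]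
      exact lin_dvd _ _
    · rw [show 1 - κ = 0 by omega, pow_zero]
      exact one_dvd _
  have hleadF : HasLead (eval₂ ιA ψ F) (N + nh) (y * Polynomial.C hb) := by
    have h1 := dvd_eval₂_sub_sub ιA (PowerSeries.X ^ N) (PowerSeries.C y)
      (fun j => jm (theta a w j)) i0 F
    rw [hιA, eval_jm, eval_jm, hF, map_zero, sub_zero] at h1
    refine ((hasLead_X_pow_mul_C N y).mul (hlead.map Polynomial.C)).of_dvd ?_
    refine Dvd.dvd.trans ?_ h1
    rw [← pow_add]
    exact pow_dvd_pow _ (by omega)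
  have hleadg : ∀ k ≤ d, ∀ g : MvPolynomial (Fin 3) O, g.IsHomogeneous k →
      (∀ μ ∈ g.support, ∃ z, μ z = 0) → g ≠ 0 → ∃ (n : ℕ) (c : L), c ≠ 0 ∧
        HasLead (eval₂ ιA ψ g) n (Polynomial.C c) ∧
        ∀ b : ℤ, c.coeff b ≠ 0 → k * D ≤ b ∧ (b : ℝ) ≤ k * (δ + 3) := by
    intro k hk g hg hgb hg0
    obtain ⟨o, n, c, ho, hn, hc, hl⟩ := hΩ k g hg hgb hg0
    refine ⟨n, c, hc, ?_, fun b hb => ?_⟩
    · have h1 := dvd_eval₂_sub ιA (PowerSeries.X ^ N) (fun j => jm (theta a w j)) ψ (by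
        intro j
        simp only [hψ, add_sub_cancel_left]
        split_ifs
        · exact dvd_mul_right _ _
        · exact dvd_zero _) (PowerSeries.X ^ o) g ho
      rw [hιA, eval_jm] at h1
      refine (hl.map Polynomial.C).of_dvd (Dvd.dvd.trans ?_ h1)
      have h2 : (jm.comp ι0) (PowerSeries.X ^ o) = PowerSeries.X ^ o := by
        simp [jm, ι0]
      rw [h2, ← pow_add]
      have := hNΩ k hk
      exact pow_dvd_pow _ (by omega)
    · have h1 := (QP_ev ha hg).window ha hl hb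
      have h2 := (window_real ha hw).1 h1.1
      have h3 := (window_real ha hw).2 h1.2
      exact ⟨hgap k (by omega) b (by exact_mod_cast h2), by exact_mod_cast h3⟩
  -- the adapted family
  let Bs : Mon d → MvPolynomial (Fin 3) O := fun μ => F ^ jj μ.1 * monomial (red μ.1) 1
  have hBs : ∀ μ, (Bs μ).IsHomogeneous d := by
    intro μ
    have h1 := (hF3.pow (jj μ.1)).mul (isHomogeneous_monomial (1 : O) (d := red μ.1) rfl)
    have h2 := red_degree μ.1
    rw [μ.degree] at h2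
    rwa [add_comm, h2] at h1
  have key : ∀ c : Mon d → O, c ≠ 0 →
      ¬ ∀ i, JJ (lin (x i)) (m i) (eval₂ ιA ψ (∑ μ, C (c μ) * Bs μ)) := fun c hc hJ =>
    key_form hD hD3 hδ hδ0 hd m hm x hx hb η hη y hy ιA ψ F (N + nh) hleadF hleadg c hc hJ
  refine ⟨p, fun f hf hder => ?_⟩
  by_contra hne
  obtain ⟨c, e, hc, hce⟩ := adapted Bs hBs (by
    intro c hc
    by_contra h
    refine key c h fun i n => ?_
    rw [hc, eval₂_zero, map_zero]
    exact J.zero _ _) f hf hne
  refine key c hc fun i => ?_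
  rw [hce, eval₂_mul]
  have := (JJ.level_zero (lin (x i)) (eval₂ ιA ψ (C e))).mul
    (JJ_eval (lin (x i)) (m i) ιA ψ (p i) (hJ1 i) f (hder i))
  rwa [zero_add] at this

end Vale.Agent.P279
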