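import Mathlib
import Vale.Agent.P279.Config

/-! From one configuration to a nonzero multihomogeneous minor. -/

namespace Vale.Agent.P279

open MvPolynomial

theorem exists_minor_field {K ρ n : Type*} [Field K] [Fintype n] [DecidableEq n]
    (row : ρ → n → K) (h : ∀ v : n → K, (∀ a, ∑ b, row a b * v b = 0) → v = 0) :
    ∃ sel : n → ρ, (Matrix.of fun a b => row (sel a) b).det ≠ 0 := by
  have hspan : Submodule.span K (Set.range row) = ⊤ := by
    by_contra hne
    obtain ⟨f, hf, hle⟩ := Submodule.exists_le_ker_of_lt_top _ (lt_top_iff_ne_top.mpr hne)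
    apply hf
    have h1 := h (fun b => f fun j => if b = j then 1 else 0) (by
      intro a
      have := hle (Submodule.subset_span ⟨a, rfl⟩)
      rw [LinearMap.mem_ker, LinearMap.pi_apply_eq_sum_univ] at this
      simpa using this)
    refine LinearMap.ext fun x => ?_
    rw [LinearMap.pi_apply_eq_sum_univ]
    refine Finset.sum_eq_zero fun b _ => ?_
    rw [congrFun h1 b]
    simp
  obtain ⟨κ, a, -, hsp, hli⟩ := exists_linearIndependent' K row
  have : Finite κ := hli.finite
  have := Fintype.ofFinite κ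
  let B : Module.Basis κ K (n → K) := Module.Basis.mk hli (by rw [hsp, hspan])
  have hcard : Fintype.card n = Fintype.card κ := by
    rw [← Module.finrank_eq_card_basis B, Module.finrank_fintype_fun_eq_card]
  let e := Fintype.equivOfCardEq hcard
  refine ⟨fun i => a (e i), ?_⟩
  have h2 : LinearIndependent K (Matrix.of fun i b => row (a (e i)) b).row :=
    hli.comp e e.injective
  exact ((Matrix.isUnit_iff_isUnit_det _).mp (Matrix.linearIndependent_rows_iff_isUnit.mp h2)).ne_zero

theorem exists_minor {R ρ n : Type*} [CommRing R] [IsDomain R] [Fintype n] [DecidableEq n]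
    (row : ρ → n → R) (h : ∀ v : n → R, (∀ a, ∑ b, row a b * v b = 0) → v = 0) :
    ∃ sel : n → ρ, (Matrix.of fun a b => row (sel a) b).det ≠ 0 := by
  let K := FractionRing R
  obtain ⟨sel, hsel⟩ := exists_minor_field (fun a b => algebraMap R K (row a b)) (by
    intro v hv
    obtain ⟨c, hc⟩ := IsLocalization.exist_integer_multiples_of_finite (nonZeroDivisors R) v
    choose u hu using hc
    have h1 : u = 0 := by
      apply h
      intro a
      apply IsFractionRing.injective R K
      rw [map_sum, map_zero]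
      simp only [map_mul, hu, Algebra.smul_def]
      have := congrArg (fun z => algebraMap R K c * z) (hv a)
      simp only [mul_zero] at this
      rw [← this, Finset.mul_sum]
      exact Finset.sum_congr rfl fun b _ => by ring
    funext b
    have h2 := hu b
    rw [h1, Pi.zero_apply, map_zero, Algebra.smul_def] at h2
    refine (mul_eq_zero.mp h2.symm).resolve_left ?_
    exact IsFractionRing.to_map_ne_zero_of_mem_nonZeroDivisors c.2)
  refine ⟨sel, fun h0 => hsel ?_⟩
  have := (algebraMap R K).map_det (Matrix.of fun a b => row (sel a) b)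
  rw [h0, map_zero] at this
  exact this.symm

section der

variable {R S : Type*} [CommRing R] [CommRing S]

/-- iterated partial derivative -/
noncomputable def der (l : List (Fin 3)) (f : MvPolynomial (Fin 3) R) : MvPolynomial (Fin 3) R :=
  l.foldr (fun j g => pderiv j g) f

theorem der_cons (j : Fin 3) (l : List (Fin 3)) (f : MvPolynomial (Fin 3) R) :
    der (j :: l) f = pderiv j (der l f) := rfl

theorem der_sum {ι : Type*} (l : List (Fin 3)) (I : Finset ι) (c : ι → R)
    (f : ι → MvPolynomial (Fin 3) R) :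
    der l (∑ i ∈ I, C (c i) * f i) = ∑ i ∈ I, C (c i) * der l (f i) := by
  induction l with
  | nil => rfl
  | cons j l ih =>
    rw [der_cons, ih, map_sum]
    exact Finset.sum_congr rfl fun i _ => by rw [pderiv_C_mul, der_cons]

theorem der_map (φ : R →+* S) (l : List (Fin 3)) (f : MvPolynomial (Fin 3) R) :
    der l (map φ f) = map φ (der l f) := by
  induction l with
  | nil => rfl
  | cons j l ih => rw [der_cons, ih, pderiv_map, der_cons]

theorem der_homog (l : List (Fin 3)) {f : MvPolynomial (Fin 3) R} {d : ℕ}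
    (hf : f.IsHomogeneous d) : (der l f).IsHomogeneous (d - l.length) := by
  induction l with
  | nil => exact hf
  | cons j l ih =>
    rw [der_cons, List.length_cons, ← Nat.sub_sub]
    exact ih.pderiv

theorem homog_eq_sum {d : ℕ} {f : MvPolynomial (Fin 3) R} (hf : f.IsHomogeneous d) :
    f = ∑ μ : Mon d, C (f.coeff μ.1) * monomial μ.1 1 := by
  classical
  refine homog_ext hf (IsHomogeneous.sum _ _ _ fun μ _ =>
    (isHomogeneous_monomial _ μ.degree).C_mul _) fun ν => ?_
  rw [coeff_sum, Finset.sum_eq_single ν]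
  · simp
  · intro μ _ hne
    rw [coeff_C_mul, coeff_monomial, if_neg (fun h => hne (Subtype.ext h)), mul_zero]
  · intro h
    exact absurd (Finset.mem_univ ν) h

theorem coeff_sum_mon {d : ℕ} (v : Mon d → R) (ν : Mon d) :
    (∑ μ : Mon d, C (v μ) * monomial μ.1 (1 : R)).coeff ν.1 = v ν := by
  classical
  rw [coeff_sum, Finset.sum_eq_single ν]
  · simp
  · intro μ _ hne
    rw [coeff_C_mul, coeff_monomial, if_neg (fun h => hne (Subtype.ext h)), mul_zero]
  · intro h
    exact absurd (Finset.mem_univ ν) h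

/-- universal entries of the matrix of vanishing conditions -/
noncomputable def U {r : ℕ} (i : Fin r) (l : List (Fin 3)) (μ : Fin 3 →₀ ℕ) :
    MvPolynomial (Fin r × Fin 3) ℤ :=
  rename (fun j => (i, j)) (der l (monomial μ 1))

theorem eval_U {r : ℕ} (p : Fin r → Fin 3 → R) (i : Fin r) (l : List (Fin 3)) (μ : Fin 3 →₀ ℕ) :
    eval₂Hom (Int.castRingHom R) (fun ij : Fin r × Fin 3 => p ij.1 ij.2) (U i l μ)
      = eval (p i) (der l (monomial μ 1)) := by
  rw [U, eval₂Hom_rename, coe_eval₂Hom, ← eval_map, ← der_map, map_monomial, map_one]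
  rfl

theorem weighted_rename {r : ℕ} (i i0 : Fin r) {g : MvPolynomial (Fin 3) R} {n : ℕ}
    (hg : g.IsHomogeneous n) :
    IsWeightedHomogeneous (fun ij : Fin r × Fin 3 => if ij.1 = i0 then 1 else 0)
      (rename (fun j => (i, j)) g) (if i = i0 then n else 0) := by
  intro α hα
  obtain ⟨u, rfl, hu⟩ := coeff_rename_ne_zero _ _ _ hα
  have hdeg : u.degree = n := degree_of_mem_support hg (mem_support_iff.mpr hu)
  rw [Finsupp.weight_apply, Finsupp.sum_mapDomain_index (by simp) (by intros; rw [add_smul]),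
    Finsupp.sum_fintype _ _ (by simp)]
  split_ifs with h
  · rw [← hdeg, Finsupp.degree_eq_sum]
    simp
  · simp

theorem weighted_map {σ : Type*} (φ : R →+* S) {w : σ → ℕ} {g : MvPolynomial σ R} {n : ℕ}
    (hg : IsWeightedHomogeneous w g n) : IsWeightedHomogeneous w (map φ g) n := by
  intro α hα
  apply hg
  intro h
  rw [coeff_map, h, map_zero] at hα
  exact hα rfl

theorem weighted_det {σ n : Type*} [Fintype n] [DecidableEq n] {w : σ → ℕ}
    (M : Matrix n n (MvPolynomial σ R)) (e : n → ℕ)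
    (h : ∀ a b, IsWeightedHomogeneous w (M a b) (e a)) :
    IsWeightedHomogeneous w M.det (∑ a, e a) := by
  rw [Matrix.det_apply]
  refine IsWeightedHomogeneous.sum _ _ _ fun s _ => ?_
  have h1 : IsWeightedHomogeneous w (∏ i, M (s i) i) (∑ a, e a) := by
    rw [← Equiv.sum_comp s e]
    exact IsWeightedHomogeneous.prod _ _ _ fun i _ => h _ _
  rcases Int.units_eq_one_or (Equiv.Perm.sign s) with h2 | h2
  · rwa [h2, one_smul]
  · rw [h2, Units.neg_smul, one_smul]
    exact h1.neg

end der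

theorem exists_Delta {r d : ℕ} (m : Fin r → ℕ) (p : Fin r → Fin 3 → O)
    (hp : ∀ f : MvPolynomial (Fin 3) O, f.IsHomogeneous d →
      (∀ (i : Fin r) (l : List (Fin 3)), l.length < m i → eval (p i) (der l f) = 0) → f = 0) :
    ∃ Δ : MvPolynomial (Fin r × Fin 3) ℂ, Δ ≠ 0 ∧
      (∀ i0 : Fin r, ∃ n : ℕ, IsWeightedHomogeneous
        (fun ij : Fin r × Fin 3 => if ij.1 = i0 then 1 else 0) Δ n) ∧
      ∀ v : Fin r → Fin 3 → ℂ, eval (fun ij : Fin r × Fin 3 => v ij.1 ij.2) Δ ≠ 0 →
        ∀ F : MvPolynomial (Fin 3) ℂ, F.IsHomogeneous d →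
          (∀ (i : Fin r) (l : List (Fin 3)), l.length < m i → eval (v i) (der l F) = 0) →
          F = 0 := by
  classical
  obtain ⟨sel, hsel⟩ := exists_minor
    (ρ := {q : Fin r × List (Fin 3) // q.2.length < m q.1}) (n := Mon d)
    (fun q μ => eval (p q.1.1) (der q.1.2 (monomial μ.1 1))) (by
      intro v hv
      have h1 := hp (∑ μ : Mon d, C (v μ) * monomial μ.1 1)
        (IsHomogeneous.sum _ _ _ fun μ _ => (isHomogeneous_monomial _ μ.degree).C_mul _) (by
          intro i l hl
          rw [der_sum, map_sum, ← hv ⟨(i, l), hl⟩]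
          exact Finset.sum_congr rfl fun μ _ => by rw [map_mul, eval_C, mul_comm])
      funext ν
      rw [← coeff_sum_mon v ν, h1]
      rfl)
  let M : Matrix (Mon d) (Mon d) (MvPolynomial (Fin r × Fin 3) ℤ) :=
    Matrix.of fun a b => U (sel a).1.1 (sel a).1.2 b.1
  have hev : ∀ {R : Type} [CommRing R] (q : Fin r → Fin 3 → R),
      eval₂Hom (Int.castRingHom R) (fun ij : Fin r × Fin 3 => q ij.1 ij.2) M.det
        = (Matrix.of fun a b : Mon d =>
            eval (q (sel a).1.1) (der (sel a).1.2 (monomial b.1 1))).det := by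
    intro R _ q
    rw [RingHom.map_det]
    congr 1
    ext a b
    exact eval_U q _ _ _
  have hM : M.det ≠ 0 := by
    intro h
    apply hsel
    rw [← hev p, h, map_zero]
  refine ⟨map (Int.castRingHom ℂ) M.det, ?_, fun i0 => ?_, fun v hv F hF hder => ?_⟩
  · intro h
    exact hM (map_injective _ (Int.castRingHom ℂ).injective_int (by rw [h, map_zero]))
  · exact ⟨_, weighted_map _ (weighted_det M
      (fun a => if (sel a).1.1 = i0 then d - (sel a).1.2.length else 0) fun a b =>
        weighted_rename _ _ (der_homog _ (isHomogeneous_monomial _ b.degree)))⟩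
  · by_contra hne
    apply hv
    rw [eval_map, ← coe_eval₂Hom, hev v, ← Matrix.exists_mulVec_eq_zero_iff]
    refine ⟨fun μ => F.coeff μ.1, fun h => hne ?_, ?_⟩
    · exact homog_ext hF (isHomogeneous_zero _ _ d) fun ν => congrFun h ν
    · funext a
      have h1 := hder _ _ (sel a).2
      rw [homog_eq_sum hF, der_sum, map_sum] at h1
      rw [Matrix.mulVec, dotProduct, Pi.zero_apply, ← h1]
      exact Finset.sum_congr rfl fun μ _ => by rw [map_mul, eval_C, mul_comm]; rfl

theorem exists_params (d : ℕ) {D : ℝ} (hD3 : 3 < D) :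
    ∃ (δ : ℝ) (a w : ℤ), δ < D ∧ 0 ≤ δ ∧ 0 < a ∧ (w : ℝ) = a * (δ + 3 / 2) ∧
      ∀ k : ℕ, k ≤ d + 3 → ∀ b : ℤ, k * δ ≤ b → k * D ≤ b := by
  have h1 : ∀ k : ℕ, ∀ᶠ δ : ℝ in nhds D, ∀ b : ℤ, k * δ ≤ b → k * D ≤ b := by
    intro k
    have h2 : ((⌈k * D⌉ : ℝ) - 1) < k * D := by linarith [Int.ceil_lt_add_one (k * D)]
    have h3 : ∀ᶠ δ : ℝ in nhds D, ((⌈k * D⌉ : ℝ) - 1) < k * δ :=
      (continuous_const.mul continuous_id).continuousAt.eventually (lt_mem_nhds h2)
    filter_upwards [h3] with δ hδ b hb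
    have h4 : ⌈k * D⌉ - 1 < b := by
      have : ((⌈k * D⌉ : ℝ) - 1) < b := lt_of_lt_of_le hδ hb
      exact_mod_cast this
    exact Int.ceil_le.mp (by omega)
  have h2 : ∀ᶠ δ : ℝ in nhds D, ∀ k ∈ Finset.range (d + 4), ∀ b : ℤ, k * δ ≤ b → k * D ≤ b :=
    (Filter.eventually_all_finset _).mpr fun k _ => h1 k
  obtain ⟨ε, hε, h3⟩ := Metric.eventually_nhds_iff.mp h2
  obtain ⟨q, hq1, hq2⟩ := exists_rat_btwn (show max (D - ε) 0 < D from max_lt (by linarith) (by linarith))
  have hq3 : D - ε < q := lt_of_le_of_lt (le_max_left _ _) hq1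
  have hq4 : (0 : ℝ) < q := lt_of_le_of_lt (le_max_right _ _) hq1
  refine ⟨q, 2 * q.den, 2 * q.num + 3 * q.den, hq2, hq4.le, by positivity, ?_, fun k hk => ?_⟩
  · have : (q : ℝ) * q.den = q.num := by exact_mod_cast Rat.mul_den_eq_num q
    push_cast
    linarith
  · refine h3 ?_ k (Finset.mem_range.mpr (by omega))
    rw [Real.dist_eq, abs_lt]
    constructor <;> linarith

theorem eval_scale {r : ℕ} {g : MvPolynomial (Fin r × Fin 3) ℂ} (n : Fin r → ℕ)
    (hg : ∀ i0, IsWeightedHomogeneous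
      (fun ij : Fin r × Fin 3 => if ij.1 = i0 then 1 else 0) g (n i0))
    (c : Fin r → ℂ) (v : Fin r → Fin 3 → ℂ) :
    eval (fun ij : Fin r × Fin 3 => c ij.1 * v ij.1 ij.2) g
      = (∏ i, c i ^ n i) * eval (fun ij : Fin r × Fin 3 => v ij.1 ij.2) g := by
  rw [eval_eq', eval_eq', Finset.mul_sum]
  refine Finset.sum_congr rfl fun α hα => ?_
  have h1 : ∀ i, n i = ∑ j, α (i, j) := by
    intro i
    rw [← hg i (mem_support_iff.mp hα), Finsupp.weight_eq_sum, Fintype.sum_prod_type,
      Finset.sum_eq_single i]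
    · simp
    · intro k _ hk
      simp [hk]
    · simp
  simp only [mul_pow, Finset.prod_mul_distrib, h1, ← Finset.prod_pow_eq_pow_sum]
  rw [Fintype.prod_prod_type (f := fun ij : Fin r × Fin 3 => c ij.1 ^ α ij)]
  ring

theorem exists_good_vectors {r : ℕ} {Δ : MvPolynomial (Fin r × Fin 3) ℂ} (hΔ : Δ ≠ 0) :
    ∃ v : Fin r → Fin 3 → ℂ, eval (fun ij : Fin r × Fin 3 => v ij.1 ij.2) Δ ≠ 0 ∧
      (∀ i, v i 0 ≠ 0) ∧ ∀ i j, i ≠ j → v i 0 * v j 1 ≠ v i 1 * v j 0 := by
  classical
  let Q : MvPolynomial (Fin r × Fin 3) ℂ := Δ * (∏ i, X (i, 0)) *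
    ∏ ij ∈ Finset.univ.filter (fun ij : Fin r × Fin r => ij.1 ≠ ij.2),
      (X (ij.1, 0) * X (ij.2, 1) - X (ij.1, 1) * X (ij.2, 0))
  have hQ : Q ≠ 0 := by
    refine mul_ne_zero (mul_ne_zero hΔ (Finset.prod_ne_zero_iff.mpr fun i _ => X_ne_zero _))
      (Finset.prod_ne_zero_iff.mpr fun ij hij h => ?_)
    have hne : ij.1 ≠ ij.2 := (Finset.mem_filter.mp hij).2
    have := congrArg (eval fun q : Fin r × Fin 3 =>
      if q = (ij.1, 0) ∨ q = (ij.2, 1) then (1 : ℂ) else 0) h
    simp [hne, hne.symm] at this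
  obtain ⟨u, hu⟩ : ∃ u, eval u Q ≠ 0 := by
    by_contra h
    push Not at h
    exact hQ (MvPolynomial.funext fun u => by rw [h u, map_zero])
  simp only [Q, map_mul, map_prod, map_sub, eval_X] at hu
  refine ⟨fun i j => u (i, j), left_ne_zero_of_mul (left_ne_zero_of_mul hu), fun i => ?_,
    fun i j hij => ?_⟩
  · exact Finset.prod_ne_zero_iff.mp (right_ne_zero_of_mul (left_ne_zero_of_mul hu)) i
      (Finset.mem_univ _)
  · exact sub_ne_zero.mp (Finset.prod_ne_zero_iff.mp (right_ne_zero_of_mul hu) (i, j)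
      (Finset.mem_filter.mpr ⟨Finset.mem_univ _, hij⟩))

/-- The algebraic core of Nagata's inequality. -/
theorem nagata_core {r d : ℕ} (hr : 10 ≤ r) (hd : 1 ≤ d) (m : Fin r → ℕ)
    (hm : d * Real.sqrt r ≤ ∑ i, (m i : ℝ)) :
    ∃ Δ : MvPolynomial (Fin r × Fin 3) ℂ, Δ ≠ 0 ∧
      (∀ i0 : Fin r, ∃ n : ℕ, IsWeightedHomogeneous
        (fun ij : Fin r × Fin 3 => if ij.1 = i0 then 1 else 0) Δ n) ∧
      ∀ v : Fin r → Fin 3 → ℂ, eval (fun ij : Fin r × Fin 3 => v ij.1 ij.2) Δ ≠ 0 →
        ∀ F : MvPolynomial (Fin 3) ℂ, F.IsHomogeneous d →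
          (∀ (i : Fin r) (l : List (Fin 3)), l.length < m i →
            eval (v i) (l.foldr (fun j g => pderiv j g) F) = 0) → F = 0 := by
  have hD3 : 3 < Real.sqrt r := by
    apply Real.lt_sqrt_of_sq_lt
    have : (10 : ℝ) ≤ r := by exact_mod_cast hr
    linarith
  obtain ⟨δ, a, w, h1, h2, h3, h4, h5⟩ := exists_params d hD3
  obtain ⟨p, hp⟩ := exists_config (Real.sq_sqrt (Nat.cast_nonneg r)) hD3 h1 h2 hd h3 h4 h5 m hm
  exact exists_Delta m p hp

end Vale.Agent.P279
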